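import Crest.Agent.SL.Main
import Crest.Prelude.Def_StreamLearn

set_option autoImplicit false
set_option linter.unusedSectionVars false

open MeasureTheory Metric Set Module ProbabilityTheory Filter Topology
open scoped ENNReal NNReal RealInnerProductSpace
open Crest.StreamLearn

namespace Crest.Agent.SL

lemma meas_run_param {X St Ω : Type*} [MeasurableSpace X] [MeasurableSpace Ω] [Fintype St]
    (step : Ω → ℕ → St → X → ℝ → St)
    (h : ∀ t m m', MeasurableSet {p : Ω × X × ℝ | step p.1 t m p.2.1 p.2.2 = m'}) :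
    ∀ (j t : ℕ) (m m' : St), MeasurableSet
      {p : Ω × (Fin j → X) × (Fin j → ℝ) | runN (step p.1) j t m p.2.1 p.2.2 = m'}
  | 0, _, m, m' => MeasurableSet.const (m = m')
  | j + 1, t, m, m'' => by
    have : {p : Ω × (Fin (j + 1) → X) × (Fin (j + 1) → ℝ) |
        runN (step p.1) (j + 1) t m p.2.1 p.2.2 = m''} =
        ⋃ m', {p | step p.1 t m (p.2.1 0) (p.2.2 0) = m'} ∩
          {p | runN (step p.1) j (t + 1) m' (Fin.tail p.2.1) (Fin.tail p.2.2) = m''} := by
      ext p; simp [runN]
    rw [this]
    refine MeasurableSet.iUnion fun m' => MeasurableSet.inter ?_ ?_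
    · exact (h t m m').preimage
        (f := fun p : Ω × (Fin (j + 1) → X) × (Fin (j + 1) → ℝ) => (p.1, p.2.1 0, p.2.2 0))
        (by fun_prop)
    · exact (meas_run_param step h j (t + 1) m' m'').preimage
        (f := fun p : Ω × (Fin (j + 1) → X) × (Fin (j + 1) → ℝ) =>
          (p.1, Fin.tail p.2.1, Fin.tail p.2.2)) (by unfold Fin.tail; fun_prop)

variable {d T M : ℕ}

/-- extended states. -/
abbrev St' (L : RLearner d T M) := L.St × Option (Fin (T + 1))

/-- one step on extended states. -/
def step' (L : RLearner d T M) (ω : L.Ω) (t : ℕ) (st : St' L) (x : E d) (y : ℝ) : St' L :=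
  if h : t < T then
    (if st.2.isSome then st else
      if (L.trans ⟨t, h⟩ ω st.1 x y).2 then ((L.trans ⟨t, h⟩ ω st.1 x y).1, some ⟨t + 1, by omega⟩)
      else ((L.trans ⟨t, h⟩ ω st.1 x y).1, none))
  else st

/-- initial extended state. -/
def init' (L : RLearner d T M) (ω : L.Ω) : St' L :=
  (L.init ω, if L.stopFirst ω then some 0 else none)

/-- embedding of extended states. -/
def emb (L : RLearner d T M) (st : St' L) : L.St × Option ℕ := (st.1, st.2.map Fin.val)

/-- output on extended states. -/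
def out' (L : RLearner d T M) (ω : L.Ω) (st : St' L) : E d :=
  L.out ((emb L st).2.getD T) ω (emb L st).1

lemma foldl_eq (L : RLearner d T M) (ω : L.Ω) : ∀ (j t : ℕ) (g : Fin j → Fin T)
    (_ : ∀ i, (g i).val = t + i) (m : St' L) (A : Fin j → E d) (y : Fin j → ℝ),
    (List.finRange j).foldl (fun st i => if st.2.isSome then st else
      if (L.trans (g i) ω st.1 (A i) (y i)).2
      then ((L.trans (g i) ω st.1 (A i) (y i)).1, some ((g i).val + 1))
      else ((L.trans (g i) ω st.1 (A i) (y i)).1, none)) (emb L m) =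
      emb L (runN (step' L ω) j t m A y)
  | 0, _, _, _, _, _, _ => by simp [runN]
  | j + 1, t, g, hg, m, A, y => by
    rw [List.finRange_succ, List.foldl_cons, List.foldl_map, runN,
      ← foldl_eq L ω j (t + 1) (fun i => g i.succ) (fun i => by rw [hg]; simp; ring)]
    congr 1
    have h0 : (g 0).val = t := by simpa using hg 0
    have h1 : t < T := h0 ▸ (g 0).2
    have h2 : g 0 = ⟨t, h1⟩ := Fin.ext h0
    simp only [step', h1, dite_true, h2, emb, Option.isSome_map]
    split_ifs <;> simp

lemma output_eq (L : RLearner d T M) (ω : L.Ω) (s : E d) (xs : Fin T → E d) :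
    L.output ω s xs = out' L ω (runN (step' L ω) T 0 (init' L ω) xs (TT xs s)) := by
  have h := foldl_eq L ω T 0 id (by simp) (init' L ω) xs (TT xs s)
  have e : emb L (init' L ω) = (L.init ω, if L.stopFirst ω then some 0 else none) := by
    simp only [emb, init']; split_ifs <;> simp
  rw [e] at h
  unfold RLearner.output out'
  rw [← h]; rfl

lemma meas_step' (L : RLearner d T M) (t : ℕ) (m m' : St' L) :
    @MeasurableSet _ (@Prod.instMeasurableSpace _ _ L.mΩ _)
      {p : L.Ω × E d × ℝ | step' L p.1 t m p.2.1 p.2.2 = m'} := by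
  let _ := L.mΩ
  by_cases h : t < T
  · by_cases h1 : m.2.isSome
    · simp only [step', h, h1, dite_true, if_true]; exact MeasurableSet.const _
    · let _ : MeasurableSpace L.St := ⊤
      let _ : MeasurableSpace (St' L) := ⊤
      have := L.fin
      have h2 := (L.trans_measurable ⟨t, h⟩ m.1).1.prodMk (L.trans_measurable ⟨t, h⟩ m.1).2
      have h3 : Measurable fun q : L.St × Bool =>
          (if q.2 then (q.1, some ⟨t + 1, by omega⟩) else (q.1, none) : St' L) :=
        measurable_of_finite _
      have h4 := (h3.comp h2) (MeasurableSet.of_discrete (s := {m'}))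
      simp only [step', h, h1, dite_true]
      exact h4
  · simp only [step', h, dite_false]; exact MeasurableSet.const _

lemma dist_le_of_arccos {o s : E d} (ho : ‖o‖ = 1) (hs : ‖s‖ = 1) {ε : ℝ}
    (h : Real.arccos ⟪o, s⟫ ≤ ε) : dist o s ≤ ε := by
  have h1 := abs_real_inner_le_norm o s
  rw [ho, hs, mul_one, abs_le] at h1
  have h2 := Real.cos_arccos h1.1 h1.2
  have h3 := Real.one_sub_sq_div_two_le_cos (x := Real.arccos ⟪o, s⟫)
  have h4 := Real.arccos_nonneg ⟪o, s⟫
  rw [dist_eq_norm]
  apply le_of_sq_le_sq _ (h4.trans h)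
  rw [norm_sub_sq_real, ho, hs]
  nlinarith

theorem main :
    ∀ A : ℝ, 0 < A → ∃ c : ℝ, 0 < c ∧ ∃ d₀ : ℕ, ∀ d ≥ d₀, ∀ (M T : ℕ),
      (M : ℝ) ≤ A * (d : ℝ) ^ 2 → ∀ ε : ℝ, 0 < ε → ε ≤ 1 / 10 →
        ∀ L : Crest.StreamLearn.RLearner d T M,
          2 / 3 ≤ L.successProb ε → c * d * Real.log (1 / ε) ≤ T := by
  intro A hA
  obtain ⟨c, hc, d₀, H⟩ := det_main A hA
  refine ⟨c, hc, d₀ + 1, fun d hd M T hM ε hε hε1 L hL => ?_⟩
  by_contra hT
  push Not at hT
  let _ := L.mΩ
  let _ := L.fin
  have := L.prob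
  have : Nontrivial (E d) := Module.nontrivial_of_finrank_pos (R := ℝ) (by simp; omega)
  have : IsProbabilityMeasure (sphereUniform d) := by
    constructor
    rw [sphereUniform, Measure.smul_apply, smul_eq_mul,
      ENNReal.inv_mul_cancel _ (measure_ne_top _ _)]
    exact Measure.measure_univ_ne_zero.mpr (Measure.toSphere_ne_zero _)
  let Mω : L.Ω → Mach (E d) (St' L) := fun ω => ⟨step' L ω, fun t m m' =>
    measurable_prodMk_left (meas_step' L t m m')⟩
  have hcard : Fintype.card (St' L) ≤ 2 ^ M * (T + 2) := by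
    rw [Fintype.card_prod, Fintype.card_option, Fintype.card_fin]
    exact Nat.mul_le_mul_right _ L.card_le
  have h1 : ∀ ω, (Mω ω).succ (sig volume) T (init' L ω) (out' L ω) ε ≤ ENNReal.ofReal (3 / 5) :=
    fun ω => H d (by omega) M T hM ε hε hε1 hT (St' L) (Mω ω) hcard
      (fun t ht m x y => by simp [Mω, step', not_lt.mpr ht]) _ _
  let S : Set (Sphere d × (L.Ω × (Fin T → E d))) := {p | dist (out' L p.2.1
    (runN (step' L p.2.1) T 0 (init' L p.2.1) p.2.2 (TT p.2.2 p.1))) p.1 ≤ ε}
  have hS : MeasurableSet S := by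
    have : S = ⋃ m₀, ⋃ m, {p | init' L p.2.1 = m₀} ∩
        ({p | runN (step' L p.2.1) T 0 m₀ p.2.2 (TT p.2.2 p.1) = m} ∩
          {p | dist (out' L p.2.1 m) p.1 ≤ ε}) := by
      ext p; simp [S]
    rw [this]
    refine MeasurableSet.iUnion fun m₀ => MeasurableSet.iUnion fun m =>
      MeasurableSet.inter ?_ (MeasurableSet.inter ?_ ?_)
    · let _ : MeasurableSpace L.St := ⊤
      let _ : MeasurableSpace (St' L) := ⊤
      have h2 := L.init_measurable.prodMk L.stopFirst_measurable
      have h3 : Measurable fun q : L.St × Bool =>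
          ((q.1, if q.2 then some 0 else none) : St' L) := measurable_of_finite _
      have h4 := (h3.comp h2) (MeasurableSet.of_discrete (s := {m₀}))
      exact h4.preimage (f := fun p : Sphere d × (L.Ω × (Fin T → E d)) => p.2.1) (by fun_prop)
    · exact (meas_run_param (step' L) (meas_step' L) T 0 m₀ m).preimage
        (f := fun p : Sphere d × (L.Ω × (Fin T → E d)) => (p.2.1, p.2.2, TT p.2.2 p.1))
        (by fun_prop)
    · have h2 : Measurable fun ω => out' L ω m := L.out_measurable _ _
      exact measurableSet_le (f := fun p : Sphere d × (L.Ω × (Fin T → E d)) =>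
        dist (out' L p.2.1 m) p.1) (by fun_prop) measurable_const
  have h2 : ((sphereUniform d).prod (L.ρ.prod (GG (E d) T))) S ≤ ENNReal.ofReal (3 / 5) := by
    rw [Measure.prod_apply hS]
    simp_rw [Measure.prod_apply (measurable_prodMk_left hS)]
    have hm : Measurable fun q : Sphere d × L.Ω => GG (E d) T (Prod.mk q.2 ⁻¹' (Prod.mk q.1 ⁻¹' S)) :=
      measurable_measure_prodMk_left (hS.preimage
        (f := fun q : (Sphere d × L.Ω) × (Fin T → E d) => (q.1.1, q.1.2, q.2)) (by fun_prop))
    rw [lintegral_lintegral_swap hm.aemeasurable]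
    refine (lintegral_mono (g := fun _ => ENNReal.ofReal (3 / 5)) fun ω => ?_).trans (by simp)
    refine le_trans (le_of_eq ?_) (h1 ω)
    have hm2 := (Mω ω).measurableSet_succ T (init' L ω) (out' L ω) ε
    rw [Mach.succ, Measure.prod_apply hm2, sig, lintegral_map (measurable_measure_prodMk_left hm2)
      measurable_subtype_coe]
    rfl
  have h3 : L.successProb ε ≤ 3 / 5 := by
    unfold RLearner.successProb
    refine le_trans (measureReal_mono (s₂ := S) fun p hp => ?_) ?_
    · show dist _ _ ≤ ε
      rw [← output_eq]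
      exact dist_le_of_arccos (L.out_unit _ _ _) (by simp) hp
    · exact ENNReal.toReal_le_of_le_ofReal (by norm_num) h2
  linarith

end Crest.Agent.SL
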