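import Crest.Agent.SL.Core

set_option autoImplicit false
set_option linter.unusedSectionVars false

open MeasureTheory Metric Set Module ProbabilityTheory Filter Topology
open scoped ENNReal NNReal RealInnerProductSpace

namespace Crest.Agent.SL

variable {X : Type*} [NormedAddCommGroup X] [InnerProductSpace ℝ X] [FiniteDimensional ℝ X]
  [MeasurableSpace X] [BorelSpace X] {St : Type*} [Fintype St] {k : ℕ}

/-- the multiscale potential. -/
noncomputable def UU (μ : Measure X) (k L : ℕ) (s : X) : ℝ≥0∞ :=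
  ∑ l : Fin (L + 1), μ (closedBall s (rho l)) * 2 ^ ((2 * k + 2) * l)

lemma measurable_UU (μ : Measure X) [SFinite μ] (k L : ℕ) : Measurable (UU μ k L) :=
  Finset.measurable_sum _ fun _ _ => (measurable_hball μ _).mul_const _

lemma UU_le (μ : Measure X) (hμ : μ univ ≤ 1) (k L : ℕ) (s : X) :
    UU μ k L s ≤ (L + 1) * 2 ^ ((2 * k + 2) * L) := by
  calc _ ≤ ∑ _l : Fin (L + 1), (2 : ℝ≥0∞) ^ ((2 * k + 2) * L) := by
        refine Finset.sum_le_sum fun l _ => ?_
        calc _ ≤ 1 * (2 : ℝ≥0∞) ^ ((2 * k + 2) * L) := by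
              gcongr
              · exact (measure_mono (subset_univ _)).trans hμ
              · exact one_le_two
              · omega
          _ = _ := one_mul _
    _ = _ := by simp

lemma term_le_UU (μ : Measure X) (k L : ℕ) (s : X) (l : Fin (L + 1)) :
    μ (closedBall s (rho l)) * 2 ^ ((2 * k + 2) * l) ≤ UU μ k L s :=
  Finset.single_le_sum (f := fun l : Fin (L + 1) =>
    μ (closedBall s (rho l)) * 2 ^ ((2 * k + 2) * l)) (fun _ _ => zero_le) (Finset.mem_univ l)

lemma univ_le_UU (μ : Measure X) (hμ : ∀ᵐ z ∂μ, ‖z‖ ≤ 1) (k L : ℕ) {s : X} (hs : ‖s‖ ≤ 1) :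
    μ univ ≤ UU μ k L s := by
  refine le_trans ?_ (term_le_UU μ k L s 0)
  simp only [Fin.coe_ofNat_eq_mod, Nat.zero_mod, mul_zero, pow_zero, mul_one]
  refine measure_mono_ae ?_
  filter_upwards [hμ] with z hz _
  show dist z s ≤ rho 0
  rw [dist_eq_norm, rho]; linarith [norm_sub_le z s]

lemma exists_class {a u : ℝ≥0∞} (h : a ≤ u) : ∀ C : ℕ, u ≤ a * 2 ^ C →
    ∃ c : Fin (C + 1), a * 2 ^ (c : ℕ) ≤ 2 * u ∧ u ≤ a * 2 ^ (c : ℕ) := by
  intro C
  induction C with
  | zero =>
    intro h1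
    exact ⟨0, by simpa [two_mul] using h.trans le_self_add, by simpa using h1⟩
  | succ C ih =>
    intro h1
    rcases le_total u (a * 2 ^ C) with h2 | h2
    · obtain ⟨c, hc⟩ := ih h2
      exact ⟨c.castSucc, hc⟩
    · refine ⟨Fin.last _, ?_, h1⟩
      rw [Fin.val_last, pow_succ, ← mul_assoc, mul_comm]; gcongr

lemma half_pow (n : ℕ) : ENNReal.ofReal ((1 / 2) ^ n) * 2 ^ n = 1 := by
  have : (2 : ℝ≥0∞) = ENNReal.ofReal 2 := by simp
  rw [this, ← ENNReal.ofReal_pow (by norm_num), ← ENNReal.ofReal_mul (by positivity), ← mul_pow]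
  simp

lemma fin_withDensity (σ : Measure X) [IsProbabilityMeasure σ] {f : X → ℝ≥0∞}
    (hf : ∀ s, f s ≤ 1) : σ.withDensity f ≤ σ := by
  calc σ.withDensity f ≤ σ.withDensity 1 := withDensity_mono (Eventually.of_forall hf)
    _ = σ := withDensity_one

lemma ballBound_class (σ : Measure X) [IsProbabilityMeasure σ] {f : X → ℝ≥0∞}
    (hf1 : ∀ s, f s ≤ 1) {L : ℕ} {θ : ℝ≥0∞}
    (hσ : ∀ l, L < l → ∀ w, σ (closedBall w (rho l / 2)) ≤
      θ * ENNReal.ofReal ((1 / 2) ^ ((2 * k + 2) * l))) :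
    BallBound (σ.withDensity ({s | UU (σ.withDensity f) k L s ≤ θ}.indicator f)) k θ := by
  intro l w
  have : IsFiniteMeasure (σ.withDensity f) := isFiniteMeasure_of_le σ (fin_withDensity σ hf1)
  have hS : MeasurableSet {s | UU (σ.withDensity f) k L s ≤ θ} :=
    measurableSet_le (measurable_UU _ _ _) measurable_const
  rw [withDensity_indicator hS, ← restrict_withDensity hS,
    Measure.restrict_apply measurableSet_closedBall]
  rcases lt_or_ge L l with h | h
  · exact (measure_mono inter_subset_left).trans ((fin_withDensity σ hf1 _).trans (hσ l h w))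
  rcases (closedBall w (rho l / 2) ∩ {s | UU (σ.withDensity f) k L s ≤ θ}).eq_empty_or_nonempty
    with h0 | ⟨z, hz1, hz2⟩
  · rw [h0]; simp
  have h1 := (term_le_UU (σ.withDensity f) k L z ⟨l, by omega⟩).trans hz2
  calc _ ≤ σ.withDensity f (closedBall z (rho l)) := by
        refine measure_mono (inter_subset_left.trans (closedBall_subset_closedBall' ?_))
        rw [dist_comm]; linarith [mem_closedBall.mp hz1]
    _ = σ.withDensity f (closedBall z (rho l)) * 2 ^ ((2 * k + 2) * l) *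
          ENNReal.ofReal ((1 / 2) ^ ((2 * k + 2) * l)) := by
        rw [mul_assoc, mul_comm (2 ^ _), half_pow, mul_one]
    _ ≤ _ := by gcongr

/-- one step of the chain. -/
noncomputable def Rule.next (R : Rule X St k) (φ : St → X → ℝ≥0∞) (m' : St) (s : X) : ℝ≥0∞ :=
  ∑ m, φ m s * R.PP m m' s

lemma Rule.measurable_next (R : Rule X St k) {φ : St → X → ℝ≥0∞} (hφ : ∀ m, Measurable (φ m))
    (m' : St) : Measurable (R.next φ m') :=
  Finset.measurable_sum _ fun m _ => (hφ m).mul (R.measurable_PP m m')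

lemma Rule.sum_next (R : Rule X St k) {φ : St → X → ℝ≥0∞} (hφ1 : ∀ s, ∑ m, φ m s ≤ 1) (s : X) :
    ∑ m', R.next φ m' s ≤ 1 := by
  unfold Rule.next
  rw [Finset.sum_comm]
  refine le_trans (Finset.sum_le_sum fun m _ => ?_) (hφ1 s)
  rw [← Finset.mul_sum]
  exact mul_le_of_le_one_right' (R.sum_PP m s)

lemma le_one_of_sum {φ : St → X → ℝ≥0∞} (hφ1 : ∀ s, ∑ m, φ m s ≤ 1) (m : St) (s : X) :
    φ m s ≤ 1 :=
  (Finset.single_le_sum (f := fun m => φ m s) (fun _ _ => zero_le) (Finset.mem_univ m)).trans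
    (hφ1 s)

lemma block [NeZero k] (R : Rule X St k) (σ : Measure X) [IsProbabilityMeasure σ]
    (hσ : ∀ᵐ s ∂σ, ‖s‖ ≤ 1) (φ : St → X → ℝ≥0∞) (hφ : ∀ m, Measurable (φ m))
    (hφ1 : ∀ s, ∑ m, φ m s ≤ 1) {L C : ℕ} {θ δ τ K : ℝ≥0} (hθ : θ ≠ 0) (hδ : δ ≠ 0) (hτ : τ ≠ 0)
    (hσb : ∀ l, L < l → ∀ w, σ (closedBall w (rho l / 2)) ≤
      θ * ENNReal.ofReal ((1 / 2) ^ ((2 * k + 2) * l)))
    (hC : (L + 1) * 2 ^ ((2 * k + 2) * L) ≤ θ * 2 ^ C)
    (hK : 2 * (L + 1) * 4 ^ L * 48 ^ (2 * k) * τ * (4 * 8 ^ finrank ℝ X) ≤ K * δ ^ 3) :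
    ∑ m, ∑ m', ∫⁻ s in {s | K * φ m s * UU (σ.withDensity (R.next φ m')) k L s <
        R.next φ m' s * UU (σ.withDensity (φ m)) k L s}, φ m s * R.PP m m' s ∂σ ≤
      Fintype.card St * θ + (L + 1) * (C + 1) *
        (4 * δ + 2 * (4⁻¹) ^ (2 * k) + Fintype.card St * ((τ : ℝ≥0∞)⁻¹) ^ k) := by
  have hK0 : K ≠ 0 := by
    rintro rfl
    have : (0 : ℝ≥0) < 2 * (L + 1) * 4 ^ L * 48 ^ (2 * k) * τ * (4 * 8 ^ finrank ℝ X) := by
      positivity
    simp only [zero_mul] at hK
    exact this.not_ge hK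
  set φ' := R.next φ
  have hφ' : ∀ m, Measurable (φ' m) := R.measurable_next hφ
  have hφ'1 : ∀ m s, φ' m s ≤ 1 := le_one_of_sum (R.sum_next hφ1)
  let U' : St → X → ℝ≥0∞ := fun m => UU (σ.withDensity (φ' m)) k L
  have : ∀ m, IsFiniteMeasure (σ.withDensity (φ' m)) := fun m =>
    isFiniteMeasure_of_le σ (fin_withDensity σ (hφ'1 m))
  have hU' : ∀ m, Measurable (U' m) := fun m => measurable_UU _ _ _
  let ψ : Fin (C + 1) → St → X → ℝ≥0∞ := fun c m =>
    {s | U' m s ≤ (θ * 2 ^ (c : ℕ) : ℝ≥0)}.indicator (φ' m)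
  let cc : Fin (L + 1) × Fin (C + 1) → ℝ≥0 := fun p =>
    2 * (L + 1) * 2 ^ ((2 * k + 2) * p.1) / (K * (θ * 2 ^ (p.2 : ℕ)) * δ)
  let S : St → St → Fin (L + 1) × Fin (C + 1) → Set X := fun m m' p =>
    {s | φ m s < δ * (cc p * σ.withDensity (φ m) (closedBall s (rho p.1))) * ψ p.2 m' s}
  have hsub : ∀ m m', {s | K * φ m s * U' m' s < φ' m' s * UU (σ.withDensity (φ m)) k L s} ⊆
      {s | U' m' s < θ} ∪ ⋃ p, S m m' p := by
    intro m m' s hs
    have hs : K * φ m s * U' m' s < φ' m' s * UU (σ.withDensity (φ m)) k L s := hs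
    rcases lt_or_ge (U' m' s) θ with h | h
    · exact Or.inl h
    right
    obtain ⟨c, hc1, hc2⟩ := exists_class h C ((UU_le _ ((fin_withDensity σ (hφ'1 m') _).trans
      prob_le_one) k L s).trans (by exact_mod_cast hC))
    obtain ⟨l, hl⟩ : ∃ l : Fin (L + 1), K * φ m s * U' m' s < φ' m' s * ((L + 1) *
        (σ.withDensity (φ m) (closedBall s (rho l)) * 2 ^ ((2 * k + 2) * l))) := by
      by_contra hcon
      push Not at hcon
      refine hs.not_ge ?_
      rw [← ENNReal.mul_le_mul_iff_right (a := (L + 1 : ℝ≥0∞)) (by simp) (by simp), UU,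
        Finset.mul_sum, Finset.mul_sum]
      calc _ ≤ ∑ _l : Fin (L + 1), K * φ m s * U' m' s :=
            Finset.sum_le_sum fun l _ => le_trans (le_of_eq (by ring)) (hcon l)
        _ = _ := by simp
    refine mem_iUnion.mpr ⟨(l, c), ?_⟩
    have e1 : ψ c m' s = φ' m' s := indicator_of_mem (by simpa using hc2) _
    have e2 : K * (θ * 2 ^ (c : ℕ)) * (δ * cc (l, c)) = 2 * (L + 1) * 2 ^ ((2 * k + 2) * l) := by
      simp only [cc]; field_simp
    have e3 : (K : ℝ≥0∞) * (θ * 2 ^ (c : ℕ)) * (δ * cc (l, c)) =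
        2 * (L + 1) * 2 ^ ((2 * k + 2) * l) := by exact_mod_cast e2
    show φ m s < δ * (cc (l, c) * σ.withDensity (φ m) (closedBall s (rho l))) * ψ c m' s
    rw [e1, ← ENNReal.mul_lt_mul_iff_right (a := K * (θ * 2 ^ (c : ℕ))) (by simp [hK0, hθ])
      (by finiteness)]
    calc _ ≤ K * (2 * U' m' s) * φ m s := by gcongr
      _ = 2 * (K * φ m s * U' m' s) := by ring
      _ < 2 * (φ' m' s * ((L + 1) *
        (σ.withDensity (φ m) (closedBall s (rho l)) * 2 ^ ((2 * k + 2) * l)))) :=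
          ENNReal.mul_lt_mul_right (by simp) (by simp) hl
      _ = 2 * (L + 1) * 2 ^ ((2 * k + 2) * l) *
          (σ.withDensity (φ m) (closedBall s (rho l)) * φ' m' s) := by ring
      _ = _ := by rw [← e3]; ring
  have b0 : ∀ m', ∑ m, ∫⁻ s in {s | U' m' s < θ}, φ m s * R.PP m m' s ∂σ ≤ θ := by
    intro m'
    rw [← lintegral_finsetSum (f := fun m s => φ m s * R.PP m m' s) _
      fun m _ => (hφ m).mul (R.measurable_PP m m'),
      show (fun s => ∑ m, φ m s * R.PP m m' s) = φ' m' from rfl,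
      ← withDensity_apply _ (measurableSet_lt (hU' m') measurable_const)]
    rcases le_or_gt (σ.withDensity (φ' m') univ) θ with h | h
    · exact (measure_mono (subset_univ _)).trans h
    · have h1 := (withDensity_absolutelyContinuous σ (φ' m')).ae_le hσ
      refine le_trans (le_of_eq ?_) zero_le
      rw [measure_eq_zero_iff_ae_notMem]
      filter_upwards [h1] with s hs
      exact not_lt.mpr (h.le.trans (univ_le_UU _ h1 k L hs))
  have b1 : ∀ p, ∑ m, ∑ m', ∫⁻ s in S m m' p, φ m s * R.PP m m' s ∂σ ≤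
      4 * δ + 2 * (4⁻¹) ^ (2 * k) + Fintype.card St * ((τ : ℝ≥0∞)⁻¹) ^ k := by
    rintro ⟨l, c⟩
    have h1 := core R σ hσ φ (ψ c) hφ
      (fun m => (hφ' m).indicator (measurableSet_le (hU' m) measurable_const)) hφ1
      (fun m s => (indicator_le_self _ _ s).trans (hφ'1 m s))
      (θ := (θ * 2 ^ (c : ℕ) : ℝ≥0)) (δ := δ) (τ := τ) (c := cc (l, c)) (by simp [hθ])
      ENNReal.coe_ne_top
      (fun m => ballBound_class σ (hφ'1 m) fun l hl w => (hσb l hl w).trans (by
        gcongr
        exact le_mul_of_one_le_right zero_le (one_le_pow₀ one_le_two)))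
      (by simp [hδ]) (by simp) (by simp [hτ]) (by simp) (ENNReal.coe_ne_zero.mpr (by simp only [cc]; positivity))
      (rho_pos l) (rho_le_two l)
    refine h1.trans ?_
    have h2 : (cc (l, c) : ℝ≥0∞) * (δ : ℝ≥0∞)⁻¹ * τ * (θ * 2 ^ (c : ℕ) : ℝ≥0) *
        ENNReal.ofReal (4 * 8 ^ finrank ℝ X * (24 * rho l) ^ (2 * k)) ≤ δ := by
      rw [← ENNReal.coe_inv hδ, ← ENNReal.coe_mul, ← ENNReal.coe_mul, ← ENNReal.coe_mul,
        ← ENNReal.ofReal_coe_nnreal, ← ENNReal.ofReal_mul (by positivity),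
        ← ENNReal.ofReal_coe_nnreal]
      apply ENNReal.ofReal_le_ofReal
      have hK' : (2 * (L + 1) * 4 ^ L * 48 ^ (2 * k) * τ * (4 * 8 ^ finrank ℝ X) : ℝ) ≤
          K * δ ^ 3 := by exact_mod_cast hK
      have h3 : (4 : ℝ) ^ (l : ℕ) ≤ 4 ^ L := pow_le_pow_right₀ (by norm_num) (by omega)
      have hK1 : (0 : ℝ) < K := by positivity
      have hδ1 : (0 : ℝ) < δ := by positivity
      have hθ1 : (0 : ℝ) < θ := by positivity
      have e : (2 : ℝ) ^ ((2 * k + 2) * l) * (24 * rho l) ^ (2 * k) = 4 ^ (l : ℕ) * 48 ^ (2 * k) := by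
        rw [rho, show (4 : ℝ) = 2 ^ 2 by norm_num, show (48 : ℝ) = 24 * 2 by norm_num]
        simp only [mul_pow, one_div, inv_pow, ← pow_mul]; field_simp; ring
      calc _ = 2 * (L + 1) * ((2 : ℝ) ^ ((2 * k + 2) * l) * (24 * rho l) ^ (2 * k)) * τ *
            (4 * 8 ^ finrank ℝ X) / (K * δ ^ 2) := by
            simp only [cc]; push_cast; field_simp
        _ ≤ _ := by
          rw [e, div_le_iff₀ (by positivity)]
          calc _ ≤ 2 * (L + 1) * (4 ^ L * 48 ^ (2 * k)) * τ * (4 * 8 ^ finrank ℝ X : ℝ) := by gcongr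
            _ ≤ _ := by linarith
    calc _ ≤ δ + (2 * (4⁻¹) ^ (2 * k) + 2 * (δ : ℝ≥0∞) +
          Fintype.card St * ((τ : ℝ≥0∞)⁻¹) ^ k + δ) := by gcongr
      _ = _ := by ring
  calc _ ≤ ∑ m, ∑ m', (∫⁻ s in {s | U' m' s < θ}, φ m s * R.PP m m' s ∂σ +
          ∑ p, ∫⁻ s in S m m' p, φ m s * R.PP m m' s ∂σ) := by
        refine Finset.sum_le_sum fun m _ => Finset.sum_le_sum fun m' _ => ?_
        refine (lintegral_mono_set (hsub m m')).trans ((lintegral_union_le _ _ _).trans ?_)
        gcongr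
        exact (lintegral_iUnion_le _ _).trans (tsum_fintype _).le
    _ ≤ ∑ _m' : St, (θ : ℝ≥0∞) + ∑ _p : Fin (L + 1) × Fin (C + 1),
          (4 * δ + 2 * (4⁻¹) ^ (2 * k) + Fintype.card St * ((τ : ℝ≥0∞)⁻¹) ^ k) := by
        simp_rw [Finset.sum_add_distrib (ι := St)]
        refine add_le_add ?_ ?_
        · rw [Finset.sum_comm]; exact Finset.sum_le_sum fun m' _ => b0 m'
        · simp_rw [Finset.sum_comm (s := (Finset.univ : Finset St))
            (t := (Finset.univ : Finset (Fin (L + 1) × Fin (C + 1))))]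
          exact Finset.sum_le_sum fun p _ => b1 p
    _ = _ := by simp [mul_add]

lemma chain (R : ℕ → Rule X St k) (σ : Measure X) [IsProbabilityMeasure σ]
    (φ : ℕ → St → X → ℝ≥0∞) (hφ0 : ∀ m, Measurable (φ 0 m)) (hφ01 : ∀ s, ∑ m, φ 0 m s ≤ 1)
    (hnext : ∀ t, φ (t + 1) = (R t).next (φ t)) {L : ℕ} {K β : ℝ≥0∞}
    (h0 : ∀ m, ∀ᵐ s ∂σ, φ 0 m s ≤ UU (σ.withDensity (φ 0 m)) k L s)
    (hb : ∀ t, (∀ m, Measurable (φ t m)) → (∀ s, ∑ m, φ t m s ≤ 1) →
      ∑ m, ∑ m', ∫⁻ s in {s | K * φ t m s * UU (σ.withDensity ((R t).next (φ t) m')) k L s <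
        (R t).next (φ t) m' s * UU (σ.withDensity (φ t m)) k L s},
          φ t m s * (R t).PP m m' s ∂σ ≤ β) (n : ℕ) :
    (∀ m, Measurable (φ n m)) ∧ (∀ s, ∑ m, φ n m s ≤ 1) ∧
      ∑ m, ∫⁻ s in {s | K ^ n * UU (σ.withDensity (φ n m)) k L s < φ n m s}, φ n m s ∂σ ≤
        n * β := by
  induction n with
  | zero =>
    refine ⟨hφ0, hφ01, ?_⟩
    simp only [pow_zero, one_mul, Nat.cast_zero, zero_mul, nonpos_iff_eq_zero]
    refine Finset.sum_eq_zero fun m _ => setLIntegral_measure_zero _ _ ?_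
    rw [measure_eq_zero_iff_ae_notMem]
    filter_upwards [h0 m] with s hs using not_lt.mpr hs
  | succ n ih =>
    obtain ⟨h1, h2, h3⟩ := ih
    rw [hnext]
    refine ⟨(R n).measurable_next h1, (R n).sum_next h2, ?_⟩
    have h4 := hb n h1 h2
    set φ' := (R n).next (φ n)
    let U := fun m => UU (σ.withDensity (φ n m)) k L
    let U' := fun m => UU (σ.withDensity (φ' m)) k L
    have hUt : ∀ m s, U m s ≠ ⊤ := fun m s =>
      ne_top_of_le_ne_top (by finiteness) (UU_le _ ((fin_withDensity σ (le_one_of_sum h2 m) _).trans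
        prob_le_one) k L s)
    have hm : ∀ m m', Measurable fun s => φ n m s * (R n).PP m m' s := fun m m' =>
      (h1 m).mul ((R n).measurable_PP m m')
    calc _ = ∑ m', ∑ m, ∫⁻ s in {s | K ^ (n + 1) * U' m' s < φ' m' s},
            φ n m s * (R n).PP m m' s ∂σ := by
          refine Finset.sum_congr rfl fun m' _ => ?_
          rw [← lintegral_finsetSum _ fun m _ => hm m m']; rfl
      _ ≤ ∑ m', ∑ m, (∫⁻ s in {s | K ^ n * U m s < φ n m s}, φ n m s * (R n).PP m m' s ∂σ +
            ∫⁻ s in {s | K * φ n m s * U' m' s < φ' m' s * U m s},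
              φ n m s * (R n).PP m m' s ∂σ) := by
          refine Finset.sum_le_sum fun m' _ => Finset.sum_le_sum fun m _ => ?_
          refine le_trans ?_ (lintegral_union_le _ _ _)
          have hz : MeasurableSet {s | φ n m s = 0} := h1 m (measurableSet_singleton 0)
          calc _ ≤ ∫⁻ s in ({s | K ^ n * U m s < φ n m s} ∪
                {s | K * φ n m s * U' m' s < φ' m' s * U m s}) ∪ {s | φ n m s = 0},
                φ n m s * (R n).PP m m' s ∂σ := by
                refine lintegral_mono_set fun s hs => ?_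
                have hs : K ^ (n + 1) * U' m' s < φ' m' s := hs
                by_cases h5 : φ n m s = 0
                · exact Or.inr h5
                rcases lt_or_ge (K ^ n * U m s) (φ n m s) with h6 | h6
                · exact Or.inl (Or.inl h6)
                refine Or.inl (Or.inr ?_)
                have h7 : U m s ≠ 0 := fun h => h5 (by simpa [h] using h6)
                calc K * φ n m s * U' m' s ≤ K * (K ^ n * U m s) * U' m' s := by gcongr
                  _ = K ^ (n + 1) * U' m' s * U m s := by ring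
                  _ < _ := ENNReal.mul_lt_mul_left h7 (hUt m s) hs
            _ ≤ _ := by
              refine (lintegral_union_le _ _ _).trans (le_of_eq ?_)
              rw [setLIntegral_eq_zero hz fun s hs => by simp [show φ n m s = 0 from hs], add_zero]
      _ ≤ n * β + β := by
          simp_rw [Finset.sum_add_distrib]
          refine add_le_add ?_ (by rw [Finset.sum_comm]; exact h4)
          rw [Finset.sum_comm]
          refine le_trans (Finset.sum_le_sum fun m _ => ?_) h3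
          rw [← lintegral_finsetSum _ fun m' _ => hm m m']
          refine lintegral_mono fun s => ?_
          rw [← Finset.mul_sum]
          exact mul_le_of_le_one_right' ((R n).sum_PP m s)
      _ = _ := by push_cast; ring

lemma final_bound (σ : Measure X) [IsProbabilityMeasure σ] {d e : ℕ}
    (hσ : ∀ z r, 0 < r → r ≤ 1 → σ (closedBall z r) ≤ ENNReal.ofReal (2 ^ d * r ^ (e + (2 * k + 2))))
    (φ : St → X → ℝ≥0∞) (hφ : ∀ m, Measurable (φ m)) (hφ1 : ∀ s, ∑ m, φ m s ≤ 1) (L : ℕ)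
    (K : ℝ≥0∞) (out : St → X) {ε : ℝ} (hε : 0 < ε) (hε1 : ε ≤ 1) :
    ∑ m, ∫⁻ s in closedBall (out m) ε, φ m s ∂σ ≤
      ∑ m, ∫⁻ s in {s | K * UU (σ.withDensity (φ m)) k L s < φ m s}, φ m s ∂σ +
        K * ((L + 1) * ENNReal.ofReal (2 ^ d * 2 ^ (2 * k + 2) * ε ^ e)) := by
  let μ := fun m => σ.withDensity (φ m)
  have : ∀ m, IsFiniteMeasure (μ m) := fun m =>
    isFiniteMeasure_of_le σ (fin_withDensity σ (le_one_of_sum hφ1 m))
  have hμ : ∑ m, μ m univ ≤ 1 := by
    simp only [μ, withDensity_apply _ MeasurableSet.univ, Measure.restrict_univ]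
    rw [← lintegral_finsetSum _ fun m _ => hφ m]
    exact (lintegral_mono hφ1).trans (by simp)
  set c := ENNReal.ofReal (2 ^ d * 2 ^ (2 * k + 2) * ε ^ e)
  have h1 : ∀ m (l : ℕ), ∫⁻ s in closedBall (out m) ε,
      μ m (closedBall s (rho l)) * 2 ^ ((2 * k + 2) * l) ∂σ ≤ c * μ m univ := by
    intro m l
    have hQ : MeasurableSet {q : X × X | dist q.2 q.1 ≤ rho l} :=
      measurableSet_le (measurable_snd.dist measurable_fst) measurable_const
    rw [lintegral_mul_const _ (measurable_hball _ _)]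
    have e1 : ∫⁻ s in closedBall (out m) ε, μ m (closedBall s (rho l)) ∂σ =
        ((σ.restrict (closedBall (out m) ε)).prod (μ m)) {q : X × X | dist q.2 q.1 ≤ rho l} := by
      rw [Measure.prod_apply hQ]; rfl
    rw [e1, Measure.prod_apply_symm hQ, ← lintegral_mul_const _
      (measurable_measure_prodMk_right hQ), ← lintegral_const]
    refine lintegral_mono fun z => ?_
    have e2 : (fun x => (x, z)) ⁻¹' {q : X × X | dist q.2 q.1 ≤ rho l} = closedBall z (rho l) := by
      ext x; simp [dist_comm]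
    rw [e2, Measure.restrict_apply measurableSet_closedBall]
    have hr := rho_pos l
    have h2 : σ (closedBall z (rho l) ∩ closedBall (out m) ε) ≤
        ENNReal.ofReal (2 ^ d * (ε ^ e * rho l ^ (2 * k + 2))) := by
      rcases le_total (rho l) ε with h | h
      · refine (measure_mono inter_subset_left).trans ((hσ z _ hr (h.trans hε1)).trans
          (ENNReal.ofReal_le_ofReal ?_))
        rw [pow_add]; gcongr
      · refine (measure_mono inter_subset_right).trans ((hσ _ _ hε hε1).trans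
          (ENNReal.ofReal_le_ofReal ?_))
        rw [pow_add]; gcongr
    refine (mul_le_mul_left h2 _).trans (le_of_eq ?_)
    rw [show (2 : ℝ≥0∞) = ENNReal.ofReal 2 by simp, ← ENNReal.ofReal_pow (by norm_num),
      ← ENNReal.ofReal_mul (by positivity)]
    congr 1
    simp only [rho, mul_pow, one_div, inv_pow, ← pow_mul]; field_simp; ring
  calc _ ≤ ∑ m, (∫⁻ s in {s | K * UU (μ m) k L s < φ m s}, φ m s ∂σ +
          K * ((L + 1) * c) * μ m univ) := by
        refine Finset.sum_le_sum fun m _ => ?_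
        have hS : MeasurableSet {s | K * UU (μ m) k L s < φ m s} :=
          measurableSet_lt ((measurable_UU _ _ _).const_mul K) (hφ m)
        calc _ ≤ ∫⁻ s in closedBall (out m) ε, ({s | K * UU (μ m) k L s < φ m s}.indicator (φ m) s +
              K * UU (μ m) k L s) ∂σ := by
              refine lintegral_mono fun s => ?_
              by_cases h : s ∈ {s | K * UU (μ m) k L s < φ m s}
              · rw [indicator_of_mem h]; exact le_self_add
              · exact (not_lt.mp h).trans le_add_self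
          _ ≤ _ := by
            rw [lintegral_add_left ((hφ m).indicator hS),
              lintegral_const_mul _ (measurable_UU _ _ _), mul_assoc K]
            refine add_le_add ?_ (mul_le_mul_right ?_ _)
            · rw [← lintegral_indicator hS]
              exact lintegral_mono' Measure.restrict_le_self le_rfl
            · unfold UU
              rw [lintegral_finsetSum (f := fun (l : Fin (L + 1)) s =>
                μ m (closedBall s (rho l)) * 2 ^ ((2 * k + 2) * l)) _
                fun l _ => (measurable_hball _ _).mul_const _]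
              refine (Finset.sum_le_sum fun (l : Fin (L + 1)) _ => h1 m l).trans (le_of_eq ?_)
              simp [mul_assoc]
    _ ≤ _ := by
      rw [Finset.sum_add_distrib, ← Finset.mul_sum]
      exact add_le_add le_rfl (mul_le_of_le_one_right' hμ)

end Crest.Agent.SL
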