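import Crest.Agent.SL.RN

set_option autoImplicit false
set_option linter.unusedSectionVars false

open MeasureTheory Metric Set Module ProbabilityTheory Filter Topology
open scoped ENNReal RealInnerProductSpace

namespace Crest.Agent.SL

variable {X : Type*} [NormedAddCommGroup X] [InnerProductSpace ℝ X] [FiniteDimensional ℝ X]
  [MeasurableSpace X] [BorelSpace X] {St : Type*} [Fintype St] {k : ℕ}

/-- concatenation of two blocks of rows. -/
def cat (p : (Fin k → X) × (Fin k → X)) : Fin k ⊕ Fin k → X := Sum.elim p.1 p.2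

lemma cat_mp : MeasurePreserving (cat (X := X) (k := k)) ((GG X k).prod (GG X k))
    (Measure.pi fun _ => stdGaussian X) := by
  have := measurePreserving_sumPiEquivProdPi_symm (fun _ : Fin k ⊕ Fin k => stdGaussian X)
  convert this using 1
  ext p i
  cases i <;> rfl

@[fun_prop]
lemma measurable_cat : Measurable (cat (X := X) (k := k)) := cat_mp.measurable

lemma lintegral_NN_cat (ν : Measure X) [SFinite ν] {η : ℝ} (hη : 0 ≤ η) (s : X) (A : Fin k → X) :
    ∫⁻ A', NN ν η (cat (A, A')) s ∂(GG X k) = ZZ ν k s η A := by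
  have hQ : MeasurableSet {q : (Fin k → X) × X |
      q.2 ∈ TT (cat (A, q.1)) ⁻¹' closedBall (TT (cat (A, q.1)) s) η} :=
    measurableSet_le (f := fun q : (Fin k → X) × X =>
      dist (TT (cat (A, q.1)) q.2) (TT (cat (A, q.1)) s)) (by fun_prop) measurable_const
  have h1 := Measure.prod_apply (μ := GG X k) (ν := ν) hQ
  rw [Measure.prod_apply_symm hQ] at h1
  refine h1.symm.trans ?_
  unfold ZZ
  congr 1; ext z
  have e : ∀ A' : Fin k → X, dist (TT (cat (A, A')) z) (TT (cat (A, A')) s) ≤ η ↔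
      A ∈ rows k (slab (z - s) η) ∧ A' ∈ rows k (slab (z - s) η) := by
    intro A'
    rw [dist_pi_le_iff hη]
    simp [rows, slab, TT, cat, Real.dist_eq, inner_sub_right]
  by_cases hA : A ∈ rows k (slab (z - s) η)
  · rw [indicator_of_mem hA, ← GG_rows]
    congr 1; ext A'
    simp only [mem_preimage, mem_ofPred_eq, mem_closedBall, e, hA, true_and]
  · rw [indicator_of_notMem hA]
    convert measure_empty (μ := GG X k)
    ext A'
    simp only [mem_preimage, mem_ofPred_eq, mem_closedBall, e, hA, false_and, mem_empty_iff_false]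

/-- a block transition rule. -/
structure Rule (X St : Type*) [MeasurableSpace X] (k : ℕ) where
  F : St → (Fin k → X) → (Fin k → ℝ) → St
  meas : ∀ m m', MeasurableSet {p : (Fin k → X) × (Fin k → ℝ) | F m p.1 p.2 = m'}

/-- transition event. -/
def Rule.Ev (R : Rule X St k) (m m' : St) : Set (X × (Fin k → X)) :=
  {p | R.F m p.2 (TT p.2 p.1) = m'}

lemma Rule.measurableSet_Ev (R : Rule X St k) (m m' : St) : MeasurableSet (R.Ev m m') :=
  (R.meas m m').preimage (f := fun p : X × (Fin k → X) => (p.2, TT p.2 p.1)) (by fun_prop)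

/-- transition probability. -/
noncomputable def Rule.PP (R : Rule X St k) (m m' : St) (s : X) : ℝ≥0∞ :=
  GG X k {A | R.F m A (TT A s) = m'}

lemma Rule.measurable_PP (R : Rule X St k) (m m' : St) : Measurable (R.PP m m') :=
  measurable_measure_prodMk_left (R.measurableSet_Ev m m')

lemma sum_fiber_le {Ω : Type*} [MeasurableSpace Ω] (Λ : Measure Ω) (f : Ω → St)
    (hf : ∀ m, MeasurableSet {ω | f ω = m}) (G : Set Ω) :
    ∑ m, Λ ({ω | f ω = m} ∩ G) ≤ Λ G := by
  have h1 : ∀ m, Λ ({ω | f ω = m} ∩ G) ≤ Λ.restrict (toMeasurable Λ G) {ω | f ω = m} := by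
    intro m
    rw [Measure.restrict_apply (hf m)]
    exact measure_mono (inter_subset_inter_right _ (subset_toMeasurable _ _))
  calc _ ≤ ∑ m, Λ.restrict (toMeasurable Λ G) {ω | f ω = m} := Finset.sum_le_sum fun m _ => h1 m
    _ = Λ.restrict (toMeasurable Λ G) (⋃ m, {ω | f ω = m}) := by
      rw [measure_iUnion _ hf, tsum_fintype]
      intro a b hab
      rw [Function.onFun, Set.disjoint_left]
      intro ω h1 h2; exact hab (h1.symm.trans h2)
    _ ≤ Λ.restrict (toMeasurable Λ G) univ := measure_mono (subset_univ _)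
    _ = _ := by rw [Measure.restrict_apply_univ, measure_toMeasurable]

lemma Rule.sum_PP (R : Rule X St k) (m : St) (s : X) : ∑ m', R.PP m m' s ≤ 1 := by
  have := sum_fiber_le (GG X k) (fun A => R.F m A (TT A s))
    (fun m' => measurable_prodMk_left (R.measurableSet_Ev m m')) univ
  simpa [Rule.PP] using this

lemma core_eta [NeZero k] (R : Rule X St k) (μ ν : St → Measure X) [∀ m, IsFiniteMeasure (μ m)]
    [∀ m, IsFiniteMeasure (ν m)] (hμ : ∑ m, μ m univ ≤ 1) (hμ1 : ∀ m, ∀ᵐ s ∂(μ m), ‖s‖ ≤ 1)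
    (hν1 : ∀ m, ∀ᵐ s ∂(ν m), ‖s‖ ≤ 1) {θ δ τ c : ℝ≥0∞} (hθ0 : θ ≠ 0) (hθ : θ ≠ ⊤)
    (hν : ∀ m, BallBound (ν m) k θ) (hδ0 : δ ≠ 0) (hδ : δ ≠ ⊤) (hτ0 : τ ≠ 0) (hτ : τ ≠ ⊤)
    (hc0 : c ≠ 0) {η r : ℝ} (hη : 0 < η) (hηr : η ≤ r) (hr : r ≤ 2) :
    ∑ m, ∑ m', ((μ m).prod ((GG X k).prod (GG X k)))
      ({q | R.F m q.2.1 (TT q.2.1 q.1) = m'} ∩ {q | 0 < c * μ m (closedBall q.1 r) ∧
        NN (μ m) η (cat q.2) q.1 ≤ c * μ m (closedBall q.1 r) * NN (ν m') η (cat q.2) q.1}) ≤
      2 * (4⁻¹) ^ (2 * k) + 2 * (c * δ⁻¹ * τ * θ *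
        ENNReal.ofReal (4 * 8 ^ finrank ℝ X * (24 * r) ^ (2 * k))) +
        Fintype.card St * (τ⁻¹) ^ k + δ := by
  set P := (GG X k).prod (GG X k)
  set I := θ * ENNReal.ofReal (4 * 8 ^ finrank ℝ X * η ^ (2 * k)) with hI
  have hI0 : I ≠ 0 := mul_ne_zero hθ0 (by simp; positivity)
  have hIt : I ≠ ⊤ := ENNReal.mul_ne_top hθ ENNReal.ofReal_ne_top
  let Ev : St → St → Set (X × ((Fin k → X) × (Fin k → X))) := fun m m' =>
    {q | R.F m q.2.1 (TT q.2.1 q.1) = m'}
  have hEv : ∀ m m', MeasurableSet (Ev m m') := fun m m' =>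
    (R.measurableSet_Ev m m').preimage
      (f := fun q : X × ((Fin k → X) × (Fin k → X)) => (q.1, q.2.1)) (by fun_prop)
  let B1 : St → Set (X × ((Fin k → X) × (Fin k → X))) := fun m =>
    {q | 0 < μ m (closedBall q.1 r) ∧
      NN (μ m) η (cat q.2) q.1 ≤ c * δ⁻¹ * τ * I * μ m (closedBall q.1 r)}
  let B2 : St → Set (X × ((Fin k → X) × (Fin k → X))) := fun m' =>
    {q | τ * I < ZZ (ν m') k q.1 η q.2.1}
  let B3 : St → Set (X × ((Fin k → X) × (Fin k → X))) := fun m' =>
    {q | ZZ (ν m') k q.1 η q.2.1 ≤ τ * I ∧ δ⁻¹ * (τ * I) ≤ NN (ν m') η (cat q.2) q.1}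
  have hZ : ∀ m', Measurable fun q : X × ((Fin k → X) × (Fin k → X)) =>
      ZZ (ν m') k q.1 η q.2.1 := fun m' => by
    have := (measurable_ZZ (ν m') k η).comp
      (f := fun q : X × ((Fin k → X) × (Fin k → X)) => (q.1, q.2.1)) (by fun_prop)
    simpa only [Function.comp_def] using this
  have hB1 : ∀ m, MeasurableSet (B1 m) := fun m => by
    have h1 : Measurable fun q : X × ((Fin k → X) × (Fin k → X)) => μ m (closedBall q.1 r) :=
      (measurable_hball (μ m) r).comp measurable_fst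
    exact (measurableSet_lt measurable_const h1).inter
      (measurableSet_le (by fun_prop) (h1.const_mul _))
  have hB2 : ∀ m', MeasurableSet (B2 m') := fun m' => measurableSet_lt measurable_const (hZ m')
  have hB3 : ∀ m', MeasurableSet (B3 m') := fun m' =>
    (measurableSet_le (hZ m') measurable_const).inter (measurableSet_le
      (g := fun q : X × ((Fin k → X) × (Fin k → X)) => NN (ν m') η (cat q.2) q.1)
      measurable_const (by fun_prop))
  have hsub : ∀ m m', (Ev m m' ∩ {q | 0 < c * μ m (closedBall q.1 r) ∧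
      NN (μ m) η (cat q.2) q.1 ≤ c * μ m (closedBall q.1 r) * NN (ν m') η (cat q.2) q.1}) ⊆
      (Ev m m' ∩ B1 m) ∪ B2 m' ∪ (Ev m m' ∩ B3 m') := by
    rintro m m' q ⟨h1, h2, h3⟩
    by_cases h4 : q ∈ B2 m'
    · exact Or.inl (Or.inr h4)
    have h4 : ZZ (ν m') k q.1 η q.2.1 ≤ τ * I := not_lt.mp h4
    rcases le_total (δ⁻¹ * (τ * I)) (NN (ν m') η (cat q.2) q.1) with h5 | h5
    · exact Or.inr ⟨h1, h4, h5⟩
    · refine Or.inl (Or.inl ⟨h1, ?_, h3.trans ?_⟩)
      · exact pos_iff_ne_zero.mpr fun h => by simp [h] at h2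
      · calc _ ≤ c * μ m (closedBall q.1 r) * (δ⁻¹ * (τ * I)) := by gcongr
          _ = _ := by ring
  have b1 : ∀ m, ((μ m).prod P) (B1 m) ≤ (2 * (4⁻¹) ^ (2 * k) + 2 * (c * δ⁻¹ * τ * θ *
      ENNReal.ofReal (4 * 8 ^ finrank ℝ X * (24 * r) ^ (2 * k)))) * μ m univ := by
    intro m
    have h1 := lemmaB (ι := Fin k ⊕ Fin k) (μ m) hη hηr (θ := c * δ⁻¹ * τ * I)
      (by simp [hc0, hδ, hτ0, hI0])
    have hm : Measurable fun B : Fin k ⊕ Fin k → X => μ m {s | 0 < μ m (closedBall s r) ∧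
        NN (μ m) η B s ≤ c * δ⁻¹ * τ * I * μ m (closedBall s r)} := by
      have h1 : Measurable fun q : (Fin k ⊕ Fin k → X) × X => μ m (closedBall q.2 r) :=
        (measurable_hball (μ m) r).comp measurable_snd
      have : MeasurableSet {q : (Fin k ⊕ Fin k → X) × X | 0 < μ m (closedBall q.2 r) ∧
          NN (μ m) η q.1 q.2 ≤ c * δ⁻¹ * τ * I * μ m (closedBall q.2 r)} :=
        (measurableSet_lt measurable_const h1).inter
          (measurableSet_le (measurable_NN _ _) (h1.const_mul _))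
      exact measurable_measure_prodMk_left this
    rw [← cat_mp.lintegral_comp hm] at h1
    rw [Measure.prod_apply_symm (hB1 m)]
    refine h1.trans (le_of_eq ?_)
    have e : Fintype.card (Fin k ⊕ Fin k) = 2 * k := by simp [two_mul]
    rw [e, hI]
    congr 2
    rw [mul_assoc 2, mul_assoc (c * δ⁻¹ * τ), mul_assoc (c * δ⁻¹ * τ), mul_assoc θ,
      ← ENNReal.ofReal_mul (by positivity)]
    congr 4
    rw [div_pow]; field_simp
  have b2 : ∀ m m', ((μ m).prod P) (B2 m') ≤ (τ⁻¹) ^ k * μ m univ := by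
    intro m m'
    rw [Measure.prod_apply (hB2 m'), ← lintegral_const]
    refine lintegral_mono_ae ?_
    filter_upwards [hμ1 m] with s hs
    have h1 := ZZ_tail (ν m') hθ0 hθ (hν m') s (by
      filter_upwards [hν1 m'] with z hz
      linarith [norm_sub_le z s]) hη (hηr.trans hr) hτ0 hτ
    refine le_trans (le_of_eq ?_) h1
    have : Prod.mk s ⁻¹' B2 m' = {A | τ * I < ZZ (ν m') k s η A} ×ˢ univ := by
      ext p; simp [B2]
    rw [this, Measure.prod_prod, measure_univ, mul_one]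
  have b3 : ∀ m m', ((μ m).prod P) (Ev m m' ∩ B3 m') ≤ δ * ((μ m).prod P) (Ev m m' ∩ univ) := by
    intro m m'
    rw [inter_univ, Measure.prod_apply ((hEv m m').inter (hB3 m')), Measure.prod_apply (hEv m m'),
      ← lintegral_const_mul' _ _ hδ]
    refine lintegral_mono fun s => ?_
    rw [Measure.prod_apply (measurable_prodMk_left ((hEv m m').inter (hB3 m'))),
      Measure.prod_apply (measurable_prodMk_left (hEv m m')), ← lintegral_const_mul' _ _ hδ]
    refine lintegral_mono fun A => ?_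
    by_cases h1 : R.F m A (TT A s) = m' ∧ ZZ (ν m') k s η A ≤ τ * I
    · have e : Prod.mk A ⁻¹' (Prod.mk s ⁻¹' Ev m m') = univ := by
        ext A'; simp [Ev, h1.1]
      rw [e, measure_univ, mul_one]
      have h2 := mul_meas_ge_le_lintegral₀ (μ := GG X k)
        (f := fun A' => NN (ν m') η (cat (A, A')) s) (Measurable.aemeasurable (by fun_prop))
        (δ⁻¹ * (τ * I))
      rw [lintegral_NN_cat _ hη.le] at h2
      have h3 : δ⁻¹ * (τ * I) ≠ 0 := by simp [hδ, hτ0, hI0]
      have h4 : δ⁻¹ * (τ * I) ≠ ⊤ :=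
        ENNReal.mul_ne_top (by simpa using hδ0) (ENNReal.mul_ne_top hτ hIt)
      rw [← ENNReal.mul_le_mul_iff_right h3 h4]
      refine le_trans (by gcongr; exact fun A' hA' => hA'.2.2) (h2.trans (h1.2.trans (le_of_eq ?_)))
      rw [mul_comm δ⁻¹, mul_assoc (τ * I), ENNReal.inv_mul_cancel hδ0 hδ, mul_one]
    · have e : Prod.mk A ⁻¹' (Prod.mk s ⁻¹' (Ev m m' ∩ B3 m')) = ∅ := by
        ext A'; simp only [mem_preimage, mem_empty_iff_false, iff_false]
        exact fun h => h1 ⟨h.1, h.2.1⟩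
      rw [e]; simp
  have hfib : ∀ m G, ∑ m', ((μ m).prod P) (Ev m m' ∩ G) ≤ ((μ m).prod P) G := fun m G =>
    sum_fiber_le _ (fun q : X × ((Fin k → X) × (Fin k → X)) => R.F m q.2.1 (TT q.2.1 q.1))
      (hEv m) G
  have huniv : ∀ m, ((μ m).prod P) univ = μ m univ := fun m => by
    rw [← univ_prod_univ, Measure.prod_prod, measure_univ (μ := P), mul_one]
  calc _ ≤ ∑ m, ∑ m', (((μ m).prod P) (Ev m m' ∩ B1 m) + (τ⁻¹) ^ k * μ m univ +
          δ * ((μ m).prod P) (Ev m m' ∩ univ)) := by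
        refine Finset.sum_le_sum fun m _ => Finset.sum_le_sum fun m' _ => ?_
        refine (measure_mono (hsub m m')).trans ((measure_union_le _ _).trans
          (add_le_add ((measure_union_le _ _).trans (add_le_add le_rfl (b2 m m'))) (b3 m m')))
    _ ≤ ∑ m, (2 * (4⁻¹) ^ (2 * k) + 2 * (c * δ⁻¹ * τ * θ *
          ENNReal.ofReal (4 * 8 ^ finrank ℝ X * (24 * r) ^ (2 * k))) +
          Fintype.card St * (τ⁻¹) ^ k + δ) * μ m univ := by
        refine Finset.sum_le_sum fun m _ => ?_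
        rw [Finset.sum_add_distrib, Finset.sum_add_distrib, ← Finset.mul_sum _ _ δ, Finset.sum_const,
          Finset.card_univ, nsmul_eq_mul, add_mul, add_mul, mul_assoc (Fintype.card St : ℝ≥0∞)]
        gcongr
        · exact (hfib m _).trans (b1 m)
        · exact (hfib m _).trans (huniv m).le
    _ ≤ _ := by
      rw [← Finset.mul_sum]
      exact mul_le_of_le_one_right' hμ

lemma core [NeZero k] (R : Rule X St k) (σ : Measure X) [IsProbabilityMeasure σ]
    (hσ : ∀ᵐ s ∂σ, ‖s‖ ≤ 1) (φ ψ : St → X → ℝ≥0∞) (hφ : ∀ m, Measurable (φ m))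
    (hψ : ∀ m, Measurable (ψ m)) (hφ1 : ∀ s, ∑ m, φ m s ≤ 1) (hψ1 : ∀ m s, ψ m s ≤ 1)
    {θ δ τ c : ℝ≥0∞} (hθ0 : θ ≠ 0) (hθ : θ ≠ ⊤)
    (hν : ∀ m, BallBound (σ.withDensity (ψ m)) k θ) (hδ0 : δ ≠ 0) (hδ : δ ≠ ⊤) (hτ0 : τ ≠ 0)
    (hτ : τ ≠ ⊤) (hc0 : c ≠ 0) {r : ℝ} (hr0 : 0 < r) (hr : r ≤ 2) :
    ∑ m, ∑ m', ∫⁻ s in {s | φ m s < δ * (c * σ.withDensity (φ m) (closedBall s r)) * ψ m' s},
      φ m s * R.PP m m' s ∂σ ≤
      δ + (2 * (4⁻¹) ^ (2 * k) + 2 * (c * δ⁻¹ * τ * θ *
        ENNReal.ofReal (4 * 8 ^ finrank ℝ X * (24 * r) ^ (2 * k))) +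
        Fintype.card St * (τ⁻¹) ^ k + δ) := by
  set P := (GG X k).prod (GG X k)
  let μ : St → Measure X := fun m => σ.withDensity (φ m)
  let ν : St → Measure X := fun m => σ.withDensity (ψ m)
  have hφ2 : ∀ m s, φ m s ≤ 1 := fun m s =>
    (Finset.single_le_sum (f := fun m => φ m s) (fun _ _ => zero_le) (Finset.mem_univ m)).trans
      (hφ1 s)
  have fin : ∀ f : X → ℝ≥0∞, (∀ s, f s ≤ 1) → IsFiniteMeasure (σ.withDensity f) := fun f hf =>
    isFiniteMeasure_withDensity (((lintegral_mono hf).trans_lt (by simp)).ne)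
  have : ∀ m, IsFiniteMeasure (μ m) := fun m => fin _ (hφ2 m)
  have : ∀ m, IsFiniteMeasure (ν m) := fun m => fin _ (hψ1 m)
  have hμ : ∑ m, μ m univ ≤ 1 := by
    simp only [μ, withDensity_apply _ MeasurableSet.univ, Measure.restrict_univ]
    rw [← lintegral_finsetSum _ fun m _ => hφ m]
    exact (lintegral_mono hφ1).trans (by simp)
  have hμ1 : ∀ m, ∀ᵐ s ∂(μ m), ‖s‖ ≤ 1 := fun m => (withDensity_absolutelyContinuous _ _).ae_le hσ
  have hν1 : ∀ m, ∀ᵐ s ∂(ν m), ‖s‖ ≤ 1 := fun m => (withDensity_absolutelyContinuous _ _).ae_le hσ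
  let η : ℕ → ℝ := fun j => r * (1 / 2) ^ j
  have hη0 : ∀ j, 0 < η j := fun j => by positivity
  have hηr : ∀ j, η j ≤ r := fun j =>
    mul_le_of_le_one_right hr0.le (pow_le_one₀ (by norm_num) (by norm_num))
  have hη : Tendsto η atTop (𝓝[>] 0) := by
    refine tendsto_nhdsWithin_iff.mpr ⟨?_, Eventually.of_forall hη0⟩
    simpa [η] using (tendsto_pow_atTop_nhds_zero_of_lt_one (r := (1 / 2 : ℝ)) (by norm_num)
      (by norm_num)).const_mul r
  let Ev : St → St → Set (X × ((Fin k → X) × (Fin k → X))) := fun m m' =>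
    {q | R.F m q.2.1 (TT q.2.1 q.1) = m'}
  have hEv : ∀ m m', MeasurableSet (Ev m m') := fun m m' =>
    (R.measurableSet_Ev m m').preimage
      (f := fun q : X × ((Fin k → X) × (Fin k → X)) => (q.1, q.2.1)) (by fun_prop)
  let a : St → X → ℝ≥0∞ := fun m s => c * μ m (closedBall s r)
  have ha : ∀ m, Measurable (a m) := fun m => (measurable_hball (μ m) r).const_mul c
  let S : St → St → Set X := fun m m' => {s | φ m s < δ * a m s * ψ m' s}
  have hS : ∀ m m', MeasurableSet (S m m') := fun m m' =>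
    measurableSet_lt (hφ m) (((ha m).const_mul δ).mul (hψ m'))
  let Bad : ℕ → St → St → Set (X × ((Fin k → X) × (Fin k → X))) := fun j m m' =>
    Ev m m' ∩ {q | 0 < a m q.1 ∧
        NN (μ m) (η j) (cat q.2) q.1 ≤ a m q.1 * NN (ν m') (η j) (cat q.2) q.1}
  have hBad : ∀ j m m', MeasurableSet (Bad j m m') := fun j m m' =>
    (hEv m m').inter ((measurableSet_lt measurable_const ((ha m).comp measurable_fst)).inter
      (measurableSet_le (by fun_prop) (((ha m).comp measurable_fst).mul (by fun_prop))))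
  have h1 : ∀ m m', ∫⁻ s in S m m', φ m s * R.PP m m' s ∂σ ≤
      δ * ((μ m).prod P) (Ev m m' ∩ univ) +
        liminf (fun j => ((μ m).prod P) (Bad j m m')) atTop := by
    intro m m'
    have hm : MeasurableSet (Ev m m' ∩ Prod.fst ⁻¹' S m m') :=
      (hEv m m').inter (measurable_fst (hS m m'))
    have e1 : ∫⁻ s in S m m', φ m s * R.PP m m' s ∂σ =
        ((μ m).prod P) (Ev m m' ∩ Prod.fst ⁻¹' S m m') := by
      rw [Measure.prod_apply hm, lintegral_withDensity_eq_lintegral_mul _ (hφ m)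
        (measurable_measure_prodMk_left hm), ← lintegral_indicator (hS m m')]
      congr 1; ext s
      by_cases hs : s ∈ S m m'
      · have : Prod.mk s ⁻¹' (Ev m m' ∩ Prod.fst ⁻¹' S m m') =
            {A | R.F m A (TT A s) = m'} ×ˢ univ := by ext p; simp [Ev, hs]
        rw [indicator_of_mem hs, Pi.mul_apply, this, Measure.prod_prod, measure_univ, mul_one]
        rfl
      · have : Prod.mk s ⁻¹' (Ev m m' ∩ Prod.fst ⁻¹' S m m') = ∅ := by ext p; simp [hs]
        rw [indicator_of_notMem hs, Pi.mul_apply, this, measure_empty, mul_zero]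
    rw [e1, inter_univ, Measure.prod_apply_symm hm, Measure.prod_apply_symm (hEv m m')]
    simp_rw [Measure.prod_apply_symm (hBad _ m m')]
    have hmB : ∀ j, Measurable fun p => μ m ((fun s => (s, p)) ⁻¹' Bad j m m') := fun j =>
      measurable_measure_prodMk_right (hBad j m m')
    refine le_trans ?_ (add_le_add le_rfl (lintegral_liminf_le hmB))
    rw [← lintegral_const_mul' _ _ hδ, ← lintegral_add_left
      ((measurable_measure_prodMk_right (hEv m m')).const_mul δ)]
    refine lintegral_mono fun p => ?_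
    have hE : MeasurableSet {y : Fin k ⊕ Fin k → ℝ | R.F m p.1 (fun i => y (Sum.inl i)) = m'} :=
      (R.meas m m').preimage (f := fun y : Fin k ⊕ Fin k → ℝ => (p.1, fun i => y (Sum.inl i)))
        (by fun_prop)
    exact rn_lemma σ (hφ m) (hψ m') (ha m) (T := TT (cat p)) (by fun_prop) hE δ hη
  calc _ ≤ ∑ m, ∑ m', (δ * ((μ m).prod P) (Ev m m' ∩ univ) +
        liminf (fun j => ((μ m).prod P) (Bad j m m')) atTop) :=
        Finset.sum_le_sum fun m _ => Finset.sum_le_sum fun m' _ => h1 m m'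
    _ ≤ δ * ∑ m, μ m univ + liminf (fun j => ∑ m, ∑ m', ((μ m).prod P) (Bad j m m')) atTop := by
        simp_rw [Finset.sum_add_distrib, ← Finset.mul_sum]
        gcongr with m
        · refine (sum_fiber_le _ (fun q : X × ((Fin k → X) × (Fin k → X)) =>
            R.F m q.2.1 (TT q.2.1 q.1)) (hEv m) univ).trans (le_of_eq ?_)
          rw [← univ_prod_univ, Measure.prod_prod, measure_univ (μ := P), mul_one]
        · exact (Finset.sum_le_sum fun m _ => sum_liminf_le _).trans (sum_liminf_le _)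
    _ ≤ _ := by
      refine add_le_add (mul_le_of_le_one_right' hμ) (liminf_le_of_frequently_le' ?_)
      exact (Eventually.of_forall fun j => core_eta R μ ν hμ hμ1 hν1 hθ0 hθ hν hδ0 hδ hτ0 hτ hc0
        (hη0 j) (hηr j) hr).frequently

end Crest.Agent.SL
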