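import Crest.Agent.SL.Moment

set_option autoImplicit false
set_option linter.unusedSectionVars false

open MeasureTheory Metric Set Module ProbabilityTheory
open scoped ENNReal RealInnerProductSpace

namespace Crest.Agent.SL

section det
variable {ι : Type*} [Fintype ι] [Nonempty ι]

lemma vol_l1 (y : ι → ℝ) {r : ℝ} (hr : 0 < r) :
    volume {w : ι → ℝ | ∑ i, |w i - y i| ≤ 4 * Fintype.card ι * r} ≤
      ENNReal.ofReal ((24 * r) ^ Fintype.card ι) := by
  have h := volume_sum_rpow_le ι (p := 1) le_rfl (4 * Fintype.card ι * r)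
  have e : {w : ι → ℝ | ∑ i, |w i - y i| ≤ 4 * Fintype.card ι * r} = (fun w => w + (-y)) ⁻¹'
      {x : ι → ℝ | (∑ i, |x i| ^ (1 : ℝ)) ^ (1 / 1 : ℝ) ≤ 4 * Fintype.card ι * r} := by
    ext w; simp [sub_eq_add_neg]
  rw [e, measure_preimage_add_right, h, ← ENNReal.ofReal_pow (by positivity),
    ← ENNReal.ofReal_mul (by positivity)]
  apply ENNReal.ofReal_le_ofReal
  set n := Fintype.card ι
  have h1 : Real.Gamma (1 / 1 + 1) = 1 := by norm_num [Real.Gamma_two]
  rw [h1, div_one, Real.Gamma_nat_eq_factorial]
  have h2 := Real.pow_div_factorial_le_exp (n : ℝ) (Nat.cast_nonneg n) n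
  have h3 : Real.exp n ≤ 3 ^ n := by
    rw [← Real.exp_one_pow]
    exact pow_le_pow_left₀ (Real.exp_pos _).le (by linarith [Real.exp_one_lt_d9]) _
  calc _ = (8 * r) ^ n * ((n : ℝ) ^ n / n.factorial) := by
        simp only [mul_pow, show (8 : ℝ) = 4 * 2 by norm_num]; ring
    _ ≤ (8 * r) ^ n * 3 ^ n := by gcongr; exact h2.trans h3
    _ = _ := by rw [← mul_pow]; ring_nf

variable {X : Type*} [MeasurableSpace X]

lemma measurable_Nball (μ : Measure X) [SFinite μ] {T : X → ι → ℝ} (hT : Measurable T) (η : ℝ) :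
    Measurable fun y : ι → ℝ => μ (T ⁻¹' closedBall y η) := by
  have : MeasurableSet {p : (ι → ℝ) × X | p.2 ∈ T ⁻¹' closedBall p.1 η} :=
    measurableSet_le ((hT.comp measurable_snd).dist measurable_fst) measurable_const
  exact measurable_measure_prodMk_left this

lemma lemmaA (μ : Measure X) [IsFiniteMeasure μ] {T : X → ι → ℝ} (hT : Measurable T)
    (y : ι → ℝ) {η r : ℝ} (hη : 0 < η) (hηr : η ≤ r) :
    ∫⁻ s in {s | ∑ i, |T s i - y i| ≤ 3 * Fintype.card ι * r},
      (μ (T ⁻¹' closedBall (T s) η))⁻¹ ∂μ ≤ ENNReal.ofReal ((24 * r / η) ^ Fintype.card ι) := by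
  have hr : 0 < r := hη.trans_le hηr
  set n := Fintype.card ι
  set S := {s | ∑ i, |T s i - y i| ≤ 3 * n * r}
  have hS : MeasurableSet S := measurableSet_le (by fun_prop) measurable_const
  let N : X → ℝ≥0∞ := fun s => (μ (T ⁻¹' closedBall (T s) η))⁻¹
  have hN : Measurable N := ((measurable_Nball μ hT η).comp hT).inv
  have hc0 : ENNReal.ofReal (η ^ n) ≠ 0 := by simp; positivity
  rw [← ENNReal.mul_le_mul_iff_left hc0 ENNReal.ofReal_ne_top, ← ENNReal.ofReal_mul (by positivity),
    ← mul_pow, div_mul_cancel₀ _ hη.ne']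
  refine le_trans ?_ (vol_l1 y hr)
  let Q : Set (X × (ι → ℝ)) := {p | dist (T p.1) p.2 ≤ η / 2}
  have hQ : MeasurableSet Q :=
    measurableSet_le ((hT.comp measurable_fst).dist measurable_snd) measurable_const
  calc _ = ∫⁻ s in S, ∫⁻ w, Q.indicator (fun p => N p.1) (s, w) ∂volume ∂μ := by
        rw [← lintegral_mul_const _ hN]
        congr 1; ext s
        have : (fun w => Q.indicator (fun p => N p.1) (s, w)) =
            (closedBall (T s) (η / 2)).indicator fun _ => N s := by
          ext w; simp [Q, indicator, dist_comm]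
        rw [this, lintegral_indicator measurableSet_closedBall, setLIntegral_const,
          Real.volume_pi_closedBall _ (by positivity)]
        congr 3; ring
    _ = ∫⁻ w, ∫⁻ s in S, Q.indicator (fun p => N p.1) (s, w) ∂μ ∂volume :=
        lintegral_lintegral_swap ((hN.comp measurable_fst).indicator hQ).aemeasurable
    _ ≤ ∫⁻ w, {w : ι → ℝ | ∑ i, |w i - y i| ≤ 4 * n * r}.indicator 1 w ∂volume := by
        refine lintegral_mono fun w => ?_
        have hB : MeasurableSet (T ⁻¹' closedBall w (η / 2)) := hT measurableSet_closedBall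
        by_cases hw : w ∈ {w : ι → ℝ | ∑ i, |w i - y i| ≤ 4 * n * r}
        · rw [indicator_of_mem hw, Pi.one_apply]
          calc _ ≤ ∫⁻ s, (T ⁻¹' closedBall w (η / 2)).indicator
                (fun _ => (μ (T ⁻¹' closedBall w (η / 2)))⁻¹) s ∂μ := by
                refine (lintegral_mono' Measure.restrict_le_self le_rfl).trans
                  (lintegral_mono fun s => ?_)
                by_cases hs : (s, w) ∈ Q
                · rw [indicator_of_mem hs, indicator_of_mem (by exact hs)]
                  refine ENNReal.inv_le_inv.mpr (measure_mono (preimage_mono ?_))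
                  refine closedBall_subset_closedBall' ?_
                  have : dist (T s) w ≤ η / 2 := hs
                  rw [dist_comm]; linarith
                · rw [indicator_of_notMem hs]; exact zero_le
            _ ≤ 1 := by
              rw [lintegral_indicator hB, setLIntegral_const]
              exact ENNReal.inv_mul_le_one _
        · rw [indicator_of_notMem hw]
          refine le_of_eq (setLIntegral_eq_zero hS fun s hs => ?_)
          refine indicator_of_notMem (fun hq => hw ?_) _
          have h1 : dist (T s) w ≤ η / 2 := hq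
          have h2 : ∑ i, |T s i - y i| ≤ 3 * n * r := hs
          have h3 : ∀ i, |w i - y i| ≤ |T s i - y i| + r := fun i => by
            have := (dist_le_pi_dist (T s) w i).trans h1
            rw [Real.dist_eq] at this
            have h4 := abs_sub_le (w i) (T s i) (y i)
            rw [abs_sub_comm (w i) (T s i)] at h4
            linarith
          calc ∑ i, |w i - y i| ≤ ∑ i, (|T s i - y i| + r) := Finset.sum_le_sum fun i _ => h3 i
            _ ≤ _ := by
              rw [Finset.sum_add_distrib, Finset.sum_const, Finset.card_univ, nsmul_eq_mul]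
              linarith
    _ = _ := by
      rw [lintegral_indicator_one (measurableSet_le (by fun_prop) measurable_const)]

end det

variable {X : Type*} [NormedAddCommGroup X] [InnerProductSpace ℝ X] [FiniteDimensional ℝ X]
  [MeasurableSpace X] [BorelSpace X] {ι : Type*} [Fintype ι]

/-- the measurement map. -/
noncomputable def TT (B : ι → X) (z : X) : ι → ℝ := fun i => ⟪B i, z⟫

@[fun_prop]
lemma measurable_TT {α : Type*} [MeasurableSpace α] {B : α → ι → X} {z : α → X}
    (hB : Measurable B) (hz : Measurable z) : Measurable fun a => TT (B a) (z a) := by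
  unfold TT; fun_prop

/-- the mass of the `η`-neighbourhood of the plane through `s`. -/
noncomputable def NN (μ : Measure X) (η : ℝ) (B : ι → X) (s : X) : ℝ≥0∞ :=
  μ (TT B ⁻¹' closedBall (TT B s) η)

lemma measurable_NN (μ : Measure X) [SFinite μ] (η : ℝ) :
    Measurable fun p : (ι → X) × X => NN μ η p.1 p.2 := by
  have : MeasurableSet {q : ((ι → X) × X) × X | q.2 ∈ TT q.1.1 ⁻¹' closedBall (TT q.1.1 q.1.2) η} :=
    measurableSet_le (f := fun q : ((ι → X) × X) × X => dist (TT q.1.1 q.2) (TT q.1.1 q.1.2))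
      (by fun_prop) measurable_const
  exact measurable_measure_prodMk_left this

@[fun_prop]
lemma measurable_NN' (μ : Measure X) [SFinite μ] (η : ℝ) {α : Type*} [MeasurableSpace α]
    {B : α → ι → X} {s : α → X} (hB : Measurable B) (hs : Measurable s) :
    Measurable fun a => NN μ η (B a) (s a) := by
  have := (measurable_NN μ η).comp (hB.prodMk hs)
  simpa only [Function.comp_def] using this

lemma measurable_hball (μ : Measure X) [SFinite μ] (r : ℝ) :
    Measurable fun s : X => μ (closedBall s r) := by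
  have : MeasurableSet {q : X × X | q.2 ∈ closedBall q.1 r} :=
    measurableSet_le (f := fun q : X × X => dist q.2 q.1) (by fun_prop) measurable_const
  exact measurable_measure_prodMk_left this

lemma lemmaB [Nonempty ι] (μ : Measure X) [IsFiniteMeasure μ] {η r : ℝ} (hη : 0 < η) (hηr : η ≤ r)
    {θ : ℝ≥0∞} (hθ : θ ≠ 0) :
    ∫⁻ B, μ {s | 0 < μ (closedBall s r) ∧ NN μ η B s ≤ θ * μ (closedBall s r)}
      ∂(Measure.pi fun _ : ι => stdGaussian X) ≤
      (2 * (4⁻¹) ^ Fintype.card ι + 2 * θ * ENNReal.ofReal ((24 * r / η) ^ Fintype.card ι)) *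
        μ univ := by
  have hr : 0 < r := hη.trans_le hηr
  set n := Fintype.card ι
  set P := Measure.pi fun _ : ι => stdGaussian X
  let h : X → ℝ≥0∞ := fun s => μ (closedBall s r)
  have hh : Measurable h := measurable_hball μ r
  let Q1 : Set (((ι → X) × X) × X) :=
    {q | dist q.2 q.1.2 ≤ r ∧ 3 * n * r ≤ ∑ i, |⟪q.1.1 i, q.1.2 - q.2⟫|}
  let Q2 : Set (((ι → X) × X) × X) := {q | ∑ i, |TT q.1.1 q.1.2 i - TT q.1.1 q.2 i| ≤ 3 * n * r}
  have hQ1 : MeasurableSet Q1 :=
    (measurableSet_le (f := fun q : ((ι → X) × X) × X => dist q.2 q.1.2) (by fun_prop)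
      measurable_const).inter (measurableSet_le
        (g := fun q : ((ι → X) × X) × X => ∑ i, |⟪q.1.1 i, q.1.2 - q.2⟫|) measurable_const
        (by fun_prop))
  have hQ2 : MeasurableSet Q2 := measurableSet_le (by unfold TT; fun_prop) measurable_const
  let W1 : (ι → X) × X → ℝ≥0∞ := fun p => μ (Prod.mk p ⁻¹' Q1)
  let W2 : (ι → X) × X → ℝ≥0∞ := fun p => μ (Prod.mk p ⁻¹' Q2)
  have hW1 : Measurable W1 := measurable_measure_prodMk_left hQ1
  have hW2 : Measurable W2 := measurable_measure_prodMk_left hQ2
  have hsum : ∀ p, h p.2 ≤ W1 p + W2 p := fun p => by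
    refine le_trans (measure_mono fun w hw => ?_) (measure_union_le _ _)
    rcases le_total (3 * n * r) (∑ i, |⟪p.1 i, p.2 - w⟫|) with h1 | h1
    · exact Or.inl ⟨hw, h1⟩
    · right; simpa [Q2, TT, inner_sub_right] using h1
  let E1 : Set ((ι → X) × X) := {p | 0 < h p.2 ∧ h p.2 ≤ 2 * W1 p}
  have hE1 : MeasurableSet E1 :=
    (measurableSet_lt measurable_const (hh.comp measurable_snd)).inter
      (measurableSet_le (hh.comp measurable_snd) (hW1.const_mul 2))
  have step1 : ∀ B, μ {s | 0 < h s ∧ NN μ η B s ≤ θ * h s} ≤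
      μ (Prod.mk B ⁻¹' E1) + 2 * θ * ENNReal.ofReal ((24 * r / η) ^ n) * μ univ := by
    intro B
    have hNB : Measurable fun s => NN μ η B s := by fun_prop
    have hsub : {s | 0 < h s ∧ NN μ η B s ≤ θ * h s} ⊆
        Prod.mk B ⁻¹' E1 ∪ {s | 1 ≤ 2 * θ * (W2 (B, s) * (NN μ η B s)⁻¹)} := by
      rintro s ⟨h0, h1⟩
      rcases le_total (W2 (B, s)) (W1 (B, s)) with h2 | h2
      · left; refine ⟨h0, (hsum (B, s)).trans ?_⟩
        rw [two_mul]; gcongr
      · right
        have h3 : h s ≤ 2 * W2 (B, s) := (hsum (B, s)).trans (by rw [two_mul]; gcongr)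
        have h4 : W2 (B, s) ≠ 0 := by
          intro h5; rw [h5, mul_zero] at h3; exact h0.not_ge h3
        show 1 ≤ 2 * θ * (W2 (B, s) * (NN μ η B s)⁻¹)
        by_cases h5 : NN μ η B s = 0
        · rw [h5, ENNReal.inv_zero, ENNReal.mul_top h4, ENNReal.mul_top (by simpa using hθ)]
          exact le_top
        · calc 1 = NN μ η B s * (NN μ η B s)⁻¹ :=
                (ENNReal.mul_inv_cancel h5 (measure_ne_top _ _)).symm
            _ ≤ θ * (2 * W2 (B, s)) * (NN μ η B s)⁻¹ := by gcongr; exact h1.trans (by gcongr)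
            _ = _ := by ring
    refine (measure_mono hsub).trans ((measure_union_le _ _).trans ?_)
    gcongr
    have hm : Measurable fun s => W2 (B, s) * (NN μ η B s)⁻¹ :=
      (hW2.comp (measurable_prodMk_left (x := B))).mul hNB.inv
    have h6 := mul_meas_ge_le_lintegral₀ (μ := μ) (hm.const_mul (2 * θ)).aemeasurable 1
    rw [one_mul, lintegral_const_mul _ hm] at h6
    refine h6.trans ?_
    rw [mul_assoc (2 * θ)]
    gcongr
    have hm2 : Measurable fun q : X × X => Q2.indicator (fun _ => (NN μ η B q.1)⁻¹) ((B, q.1), q.2) :=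
      (hNB.inv.comp measurable_fst).indicator (hQ2.preimage
        (f := fun q : X × X => ((B, q.1), q.2)) (by fun_prop))
    calc _ = ∫⁻ s, ∫⁻ w, Q2.indicator (fun _ => (NN μ η B s)⁻¹) ((B, s), w) ∂μ ∂μ := by
          congr 1; ext s
          rw [mul_comm, ← setLIntegral_const,
            ← lintegral_indicator (measurable_prodMk_left hQ2)]
          rfl
      _ = ∫⁻ w, ∫⁻ s, Q2.indicator (fun _ => (NN μ η B s)⁻¹) ((B, s), w) ∂μ ∂μ :=
          lintegral_lintegral_swap hm2.aemeasurable
      _ ≤ ∫⁻ _, ENNReal.ofReal ((24 * r / η) ^ n) ∂μ := by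
          refine lintegral_mono fun w => ?_
          refine le_trans (le_of_eq ?_) (lemmaA μ (T := TT B) (by fun_prop) (TT B w) hη hηr)
          rw [← lintegral_indicator (measurableSet_le (by unfold TT; fun_prop) measurable_const)]
          rfl
      _ = _ := lintegral_const _
  have step2 : ∫⁻ B, μ (Prod.mk B ⁻¹' E1) ∂P ≤ 2 * (4⁻¹) ^ n * μ univ := by
    rw [← Measure.prod_apply hE1, Measure.prod_apply_symm hE1, ← lintegral_const]
    refine lintegral_mono fun s => ?_
    rcases eq_zero_or_pos (h s) with h0 | h0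
    · have : (fun B => (B, s)) ⁻¹' E1 = ∅ := by ext B; simp [E1, h0]
      rw [this]; simp
    have hm : Measurable fun B => 2 * W1 (B, s) :=
      (hW1.comp (measurable_prodMk_right (y := s))).const_mul 2
    have h6 := mul_meas_ge_le_lintegral₀ (μ := P) hm.aemeasurable (h s)
    rw [← ENNReal.mul_le_mul_iff_right h0.ne' (measure_ne_top _ _)]
    refine le_trans (by gcongr; exact fun B hB => hB.2) (h6.trans ?_)
    rw [lintegral_const_mul' _ _ (by simp), mul_left_comm]
    gcongr
    have hQ : MeasurableSet ((fun q : (ι → X) × X => ((q.1, s), q.2)) ⁻¹' Q1) :=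
      hQ1.preimage (by fun_prop)
    calc _ = (P.prod μ) ((fun q : (ι → X) × X => ((q.1, s), q.2)) ⁻¹' Q1) := by
          rw [Measure.prod_apply hQ]; rfl
      _ ≤ ∫⁻ w, (closedBall s r).indicator (fun _ => (4⁻¹) ^ n) w ∂μ := by
          rw [Measure.prod_apply_symm hQ]
          refine lintegral_mono fun w => ?_
          by_cases hw : w ∈ closedBall s r
          · rw [indicator_of_mem hw]
            refine le_trans (measure_mono fun B hB => hB.2) (l1_tail (s - w) hr ?_)
            rwa [← dist_eq_norm, dist_comm]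
          · have : (fun B => (B, w)) ⁻¹' ((fun q : (ι → X) × X => ((q.1, s), q.2)) ⁻¹' Q1) = ∅ := by
              ext B; simp only [mem_preimage, mem_empty_iff_false, iff_false]
              exact fun hB => hw hB.1
            rw [this]; simp
      _ = _ := by rw [lintegral_indicator measurableSet_closedBall, setLIntegral_const, mul_comm]
  calc _ ≤ ∫⁻ B, (μ (Prod.mk B ⁻¹' E1) + 2 * θ * ENNReal.ofReal ((24 * r / η) ^ n) * μ univ) ∂P :=
        lintegral_mono step1
    _ ≤ _ := by
      rw [lintegral_add_right _ measurable_const, lintegral_const, measure_univ (μ := P), mul_one,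
        add_mul]
      gcongr

end Crest.Agent.SL
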