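import Crest.Agent.SL.Block

set_option autoImplicit false
set_option linter.unusedSectionVars false

open MeasureTheory Metric Set Module ProbabilityTheory Filter Topology
open scoped ENNReal NNReal RealInnerProductSpace

namespace Crest.Agent.SL

variable {X : Type*} [NormedAddCommGroup X] [InnerProductSpace ℝ X] [FiniteDimensional ℝ X]
  [MeasurableSpace X] [BorelSpace X] {St : Type*} [Fintype St]

/-- a deterministic finite-state streaming machine. -/
structure Mach (X St : Type*) [MeasurableSpace X] where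
  step : ℕ → St → X → ℝ → St
  meas : ∀ t m m', MeasurableSet {p : X × ℝ | step t m p.1 p.2 = m'}

/-- run `j` steps from time `t`. -/
def runN (step : ℕ → St → X → ℝ → St) : (j : ℕ) → ℕ → St → (Fin j → X) → (Fin j → ℝ) → St
  | 0, _, m, _, _ => m
  | j + 1, t, m, A, y => runN step j (t + 1) (step t m (A 0) (y 0)) (Fin.tail A) (Fin.tail y)

lemma Mach.meas_run (M : Mach X St) : ∀ (j t : ℕ) (m m' : St),
    MeasurableSet {p : (Fin j → X) × (Fin j → ℝ) | runN M.step j t m p.1 p.2 = m'}
  | 0, _, m, m' => MeasurableSet.const (m = m')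
  | j + 1, t, m, m'' => by
    have : {p : (Fin (j + 1) → X) × (Fin (j + 1) → ℝ) | runN M.step (j + 1) t m p.1 p.2 = m''} =
        ⋃ m', {p | M.step t m (p.1 0) (p.2 0) = m'} ∩
          {p | runN M.step j (t + 1) m' (Fin.tail p.1) (Fin.tail p.2) = m''} := by
      ext p; simp [runN]
    rw [this]
    refine MeasurableSet.iUnion fun m' => MeasurableSet.inter ?_ ?_
    · exact (M.meas t m m').preimage
        (f := fun p : (Fin (j + 1) → X) × (Fin (j + 1) → ℝ) => (p.1 0, p.2 0)) (by fun_prop)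
    · exact (M.meas_run j (t + 1) m' m'').preimage
        (f := fun p : (Fin (j + 1) → X) × (Fin (j + 1) → ℝ) => (Fin.tail p.1, Fin.tail p.2))
        (by unfold Fin.tail; fun_prop)

/-- block rule of a machine. -/
def Mach.rule (M : Mach X St) (j t : ℕ) : Rule X St j := ⟨runN M.step j t, M.meas_run j t⟩

/-- `j`-step transition probabilities. -/
noncomputable def Mach.P (M : Mach X St) (j t : ℕ) (m m' : St) (s : X) : ℝ≥0∞ :=
  (M.rule j t).PP m m' s

open Classical in
lemma Mach.P_zero (M : Mach X St) (t : ℕ) (m m' : St) (s : X) :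
    M.P 0 t m m' s = if m = m' then 1 else 0 := by
  unfold Mach.P Rule.PP
  split_ifs with h <;> simp [Mach.rule, runN, h]

lemma Mach.P_succ (M : Mach X St) (j t : ℕ) (m m'' : St) (s : X) :
    M.P (j + 1) t m m'' s =
      ∑ m', stdGaussian X {x | M.step t m x ⟪x, s⟫ = m'} * M.P j (t + 1) m' m'' s := by
  have h := measurePreserving_piFinSuccAbove (fun _ : Fin (j + 1) => stdGaussian X) 0
  have hm1 : ∀ m', MeasurableSet {x | M.step t m x ⟪x, s⟫ = m'} := fun m' =>
    (M.meas t m m').preimage (f := fun x : X => (x, ⟪x, s⟫)) (by fun_prop)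
  have hm2 : ∀ m', MeasurableSet {A | runN M.step j (t + 1) m' A (TT A s) = m''} := fun m' =>
    measurable_prodMk_left ((M.rule j (t + 1)).measurableSet_Ev m' m'')
  have e : {A | runN M.step (j + 1) t m A (TT A s) = m''} =
      MeasurableEquiv.piFinSuccAbove (fun _ => X) 0 ⁻¹' ⋃ m', {x | M.step t m x ⟪x, s⟫ = m'} ×ˢ
        {A | runN M.step j (t + 1) m' A (TT A s) = m''} := by
    ext A
    simp only [runN, mem_ofPred_eq, mem_preimage, mem_iUnion, mem_prod, exists_eq_left']
    rfl
  change GG X (j + 1) {A | runN M.step (j + 1) t m A (TT A s) = m''} = _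
  rw [e, h.measure_preimage_equiv, measure_iUnion _ fun m' => (hm1 m').prod (hm2 m'), tsum_fintype]
  · refine Finset.sum_congr rfl fun m' _ => ?_
    rw [Measure.prod_prod]; rfl
  · intro a b hab
    rw [Function.onFun, Set.disjoint_left]
    intro p h1 h2; exact hab (h1.1.symm.trans h2.1)

lemma Mach.P_add (M : Mach X St) (j : ℕ) (s : X) (m'' : St) : ∀ (i t : ℕ) (m : St),
    M.P (i + j) t m m'' s = ∑ m', M.P i t m m' s * M.P j (t + i) m' m'' s
  | 0, t, m => by
    classical
    simp [Mach.P_zero, Finset.sum_ite_eq]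
  | i + 1, t, m => by
    rw [Nat.add_right_comm, Mach.P_succ]
    simp_rw [M.P_add j s m'' i (t + 1), Mach.P_succ, Finset.mul_sum, Finset.sum_mul]
    rw [Finset.sum_comm]
    refine Finset.sum_congr rfl fun a _ => Finset.sum_congr rfl fun b _ => ?_
    rw [mul_assoc, add_assoc, add_comm 1 i]

lemma runN_triv {step : ℕ → St → X → ℝ → St} {T : ℕ} (h : ∀ t, T ≤ t → ∀ m x y, step t m x y = m) :
    ∀ (j t : ℕ), T ≤ t → ∀ m A y, runN step j t m A y = m
  | 0, _, _, _, _, _ => rfl
  | j + 1, t, ht, m, A, y => by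
    rw [runN, h t ht, runN_triv h j (t + 1) (by omega)]

lemma Mach.P_pad (M : Mach X St) {T : ℕ} (h : ∀ t, T ≤ t → ∀ m x y, M.step t m x y = m)
    {T' : ℕ} (hT : T ≤ T') (m m'' : St) (s : X) : M.P T' 0 m m'' s = M.P T 0 m m'' s := by
  classical
  obtain ⟨j, rfl⟩ := Nat.exists_eq_add_of_le hT
  have : ∀ m', M.P j (0 + T) m' m'' s = if m' = m'' then 1 else 0 := fun m' => by
    unfold Mach.P Rule.PP
    split_ifs with h1 <;> simp [Mach.rule, runN_triv h j T le_rfl, h1]
  rw [Mach.P_add]; simp_rw [this]; simp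

/-- success probability of a machine. -/
noncomputable def Mach.succ (M : Mach X St) (σ : Measure X) (T : ℕ) (m₀ : St) (out : St → X)
    (ε : ℝ) : ℝ≥0∞ :=
  (σ.prod (GG X T)) {p | dist (out (runN M.step T 0 m₀ p.2 (TT p.2 p.1))) p.1 ≤ ε}

lemma Mach.succ_set (M : Mach X St) (T : ℕ) (m₀ : St) (out : St → X) (ε : ℝ) :
    {p : X × (Fin T → X) | dist (out (runN M.step T 0 m₀ p.2 (TT p.2 p.1))) p.1 ≤ ε} =
      ⋃ m, (M.rule T 0).Ev m₀ m ∩ Prod.fst ⁻¹' closedBall (out m) ε := by
  ext p; simp [Rule.Ev, Mach.rule, dist_comm]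

lemma Mach.measurableSet_succ (M : Mach X St) (T : ℕ) (m₀ : St) (out : St → X) (ε : ℝ) :
    MeasurableSet
      {p : X × (Fin T → X) | dist (out (runN M.step T 0 m₀ p.2 (TT p.2 p.1))) p.1 ≤ ε} := by
  rw [Mach.succ_set]
  exact MeasurableSet.iUnion fun m =>
    (Rule.measurableSet_Ev _ _ _).inter (measurable_fst measurableSet_closedBall)

lemma Mach.succ_le (M : Mach X St) (σ : Measure X) (T : ℕ) (m₀ : St) (out : St → X) (ε : ℝ) :
    M.succ σ T m₀ out ε ≤ ∑ m, ∫⁻ s in closedBall (out m) ε, M.P T 0 m₀ m s ∂σ := by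
  rw [Mach.succ, Mach.succ_set]
  refine (measure_iUnion_fintype_le _ _).trans (Finset.sum_le_sum fun m _ => ?_)
  rw [Measure.prod_apply ((Rule.measurableSet_Ev _ _ _).inter
    (measurable_fst measurableSet_closedBall)), ← lintegral_indicator measurableSet_closedBall]
  refine lintegral_mono fun s => ?_
  by_cases h : s ∈ closedBall (out m) ε
  · rw [indicator_of_mem h]; exact measure_mono fun A hA => hA.1
  · have : Prod.mk s ⁻¹' ((M.rule T 0).Ev m₀ m ∩ Prod.fst ⁻¹' closedBall (out m) ε) = ∅ := by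
      ext A; simp only [mem_preimage, mem_empty_iff_false, iff_false]; exact fun h' => h h'.2
    rw [this]; simp

lemma Mach.succ_count (M : Mach X St) (σ : Measure X) (T : ℕ) (m₀ : St) (out : St → X) (ε : ℝ)
    {b : ℝ≥0∞} (hb : ∀ z, σ (closedBall z ε) ≤ b) :
    M.succ σ T m₀ out ε ≤ Fintype.card St * b := by
  refine (M.succ_le σ T m₀ out ε).trans ?_
  calc _ ≤ ∑ _m : St, b := Finset.sum_le_sum fun m _ => by
        refine le_trans ?_ (hb (out m))
        rw [← setLIntegral_one]
        exact lintegral_mono fun s => prob_le_one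
    _ = _ := by simp

lemma Mach.succ_refl [Nontrivial X] (M : Mach X St) {T : ℕ} (m₀ : St) (out : St → X) {ε : ℝ}
    (hε : ε ≤ 1 / 10) (hT : 4 * T ≤ finrank ℝ X) (hd : 2 ≤ finrank ℝ X) :
    M.succ (sig volume) T m₀ out ε ≤ ENNReal.ofReal (3 / 5) := by
  have hm := M.measurableSet_succ T m₀ out ε
  rw [Mach.succ, Measure.prod_apply_symm hm]
  refine (lintegral_mono (g := fun _ => ENNReal.ofReal (3 / 5)) fun A => ?_).trans (by simp)
  set G := (fun x => (x, A)) ⁻¹'
    {p : X × (Fin T → X) | dist (out (runN M.step T 0 m₀ p.2 (TT p.2 p.1))) p.1 ≤ ε}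
  have hG : MeasurableSet G := measurable_prodMk_right hm
  let V : Submodule ℝ X := Submodule.span ℝ (range A)
  have hV : finrank ℝ V ≤ T := by simpa [Set.finrank] using finrank_range_le_card A
  have h1 := sig_map volume V.reflection V.reflection.measurePreserving hG
  have h2 := measure_union_add_inter (μ := sig (volume : Measure X)) G
    (V.reflection.continuous.measurable hG)
  have h3 : G ∩ V.reflection ⁻¹' G ⊆ {x | dV V x ≤ 1 / 10} := by
    rintro s ⟨h4, h5⟩
    have e : TT A (V.reflection s) = TT A s := by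
      ext i
      have hA : A i ∈ V := Submodule.subset_span (mem_range_self i)
      unfold TT
      rw [← V.reflection.inner_map_map, Submodule.reflection_reflection,
        Submodule.reflection_mem_subspace_eq_self hA]
    have h4 : dist (out (runN M.step T 0 m₀ A (TT A s))) s ≤ ε := h4
    have h5 : dist (out (runN M.step T 0 m₀ A (TT A (V.reflection s)))) (V.reflection s) ≤ ε := h5
    rw [e] at h5
    have h6 := dist_triangle_left s (V.reflection s) (out (runN M.step T 0 m₀ A (TT A s)))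
    have h7 : s - V.reflection s = (2 : ℝ) • (s - V.starProjection s) := by
      rw [Submodule.reflection_apply, two_smul, two_smul]; abel
    rw [dist_eq_norm s, h7, norm_smul] at h6
    simp only [Real.norm_ofNat] at h6
    show ‖s - V.starProjection s‖ ≤ 1 / 10
    linarith
  have h4 : sig volume (G ∩ V.reflection ⁻¹' G) ≤ ENNReal.ofReal (1 / 5) := by
    refine (measure_mono h3).trans ((sig_dV _ V (by norm_num)).trans (ENNReal.ofReal_le_ofReal ?_))
    have h5 : ((1 : ℝ) / (1 / 10)) ^ finrank ℝ V ≤ 2 ^ finrank ℝ X := by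
      calc _ ≤ (2 ^ 4 : ℝ) ^ finrank ℝ V := by gcongr; norm_num
        _ ≤ _ := by rw [← pow_mul]; exact pow_le_pow_right₀ (by norm_num) (by omega)
    calc _ ≤ 2 ^ finrank ℝ X * (2 * (1 / 10) : ℝ) ^ finrank ℝ X := by gcongr
      _ = (2 / 5) ^ finrank ℝ X := by rw [← mul_pow]; norm_num
      _ ≤ (2 / 5) ^ 2 := pow_le_pow_of_le_one (by norm_num) (by norm_num) hd
      _ ≤ _ := by norm_num
  rw [h1, ← two_mul] at h2
  rw [← ENNReal.mul_le_mul_iff_right (a := 2) (by simp) (by simp), ← h2]
  refine (add_le_add prob_le_one h4).trans (le_of_eq ?_)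
  rw [← ENNReal.ofReal_one, ← ENNReal.ofReal_add (by norm_num) (by norm_num),
    show (2 : ℝ≥0∞) = ENNReal.ofReal 2 by simp, ← ENNReal.ofReal_mul (by norm_num)]
  norm_num

end Crest.Agent.SL
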