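import Crest.Agent.SL.Mach

set_option autoImplicit false
set_option linter.unusedSectionVars false

open MeasureTheory Metric Set Module ProbabilityTheory Filter Topology
open scoped ENNReal NNReal RealInnerProductSpace

namespace Crest.Agent.SL

variable {X : Type*} [NormedAddCommGroup X] [InnerProductSpace ℝ X] [FiniteDimensional ℝ X]
  [MeasurableSpace X] [BorelSpace X] {St : Type*} [Fintype St]

lemma succ_main [Nontrivial X] (M : Mach X St) {T k a n : ℕ}
    (htriv : ∀ t, T ≤ t → ∀ m x y, M.step t m x y = m) (m₀ : St) (out : St → X) {ε : ℝ}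
    (hε : 0 < ε) (hε1 : ε ≤ 1) (hk : 3 ≤ k) (hd1 : 4 * k ≤ finrank ℝ X) (hd2 : finrank ℝ X ≤ 5 * k)
    (hN : Fintype.card St ≤ 2 ^ (a * k ^ 2)) (hn : T ≤ n * k) :
    M.succ (sig volume) T m₀ out ε ≤
      ENNReal.ofReal (n * (8 * (a + 7) * (6 * a + 40) * k ^ 3 * (1 / 2) ^ k) +
        2 ^ ((4 * a + 52) * k * (n + 1)) * ε ^ k) := by
  classical
  have : NeZero k := ⟨by omega⟩
  set d := finrank ℝ X
  set σ : Measure X := sig volume
  have hσ1 : ∀ᵐ s ∂σ, ‖s‖ ≤ 1 := (sig_norm _).mono fun s hs => hs.le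
  let φ : ℕ → St → X → ℝ≥0∞ := fun t m s => M.P (t * k) 0 m₀ m s
  let L := a * k + 6
  let C := L + (2 * k + 2) * L + (a * k ^ 2 + k)
  let θ : ℝ≥0 := (1 / 2) ^ (a * k ^ 2 + k)
  let δ : ℝ≥0 := (1 / 2) ^ k
  let τ : ℝ≥0 := 2 ^ (a * k + 1)
  let K : ℝ≥0 := 2 ^ ((4 * a + 52) * k)
  have hL : (L + 1 : ℝ≥0) ≤ 2 ^ L := by exact_mod_cast Nat.lt_two_pow_self
  have hσb : ∀ l, L < l → ∀ w, σ (closedBall w (rho l / 2)) ≤
      θ * ENNReal.ofReal ((1 / 2) ^ ((2 * k + 2) * l)) := by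
    intro l hl w
    have e : rho l / 2 = (1 / 2) ^ l := by unfold rho; ring
    rw [e]
    refine (sig_ball _ w (by positivity) (pow_le_one₀ (by norm_num) (by norm_num))).trans ?_
    rw [← ENNReal.ofReal_coe_nnreal, ← ENNReal.ofReal_mul (by positivity)]
    apply ENNReal.ofReal_le_ofReal
    obtain ⟨e, he⟩ : ∃ e, l * (d - 1) = d + (a * k ^ 2 + k + (2 * k + 2) * l) + e := by
      apply Nat.exists_eq_add_of_le
      have h1 : (2 * k + 2) + k ≤ d - 1 := by omega
      have h2 : l * ((2 * k + 2) + k) ≤ l * (d - 1) := Nat.mul_le_mul_left _ h1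
      have h3 : (a * k + 6) * k ≤ l * k := Nat.mul_le_mul_right _ hl.le
      nlinarith
    simp only [θ]; push_cast
    rw [← pow_mul, he, ← pow_add, pow_add, pow_add, ← mul_assoc, ← mul_assoc, ← mul_pow]
    norm_num
    exact pow_le_one₀ (by norm_num) (by norm_num)
  have hC : (L + 1 : ℝ≥0) * 2 ^ ((2 * k + 2) * L) ≤ θ * 2 ^ C := by
    calc _ ≤ (2 : ℝ≥0) ^ L * 2 ^ ((2 * k + 2) * L) := by gcongr
      _ = _ := by simp only [θ, C, pow_add, one_div, inv_pow]; field_simp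
  have hK : 2 * (L + 1) * 4 ^ L * 48 ^ (2 * k) * τ * (4 * 8 ^ d) ≤ K * δ ^ 3 := by
    have h1 : K * δ ^ 3 = 2 ^ ((4 * a + 49) * k) := by
      simp only [K, δ, one_div, inv_pow]; field_simp; ring
    rw [h1]
    calc _ ≤ 2 * 2 ^ L * (2 ^ 2) ^ L * (2 ^ 6) ^ (2 * k) * 2 ^ (a * k + 1) *
          (2 ^ 2 * (2 ^ 3) ^ d : ℝ≥0) := by
          gcongr <;> norm_num
      _ = 2 ^ (1 + L + 2 * L + 6 * (2 * k) + (a * k + 1) + (2 + 3 * d)) := by
          simp only [← pow_mul, pow_add, pow_one]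
      _ ≤ _ := by
        refine pow_le_pow_right₀ one_le_two ?_
        simp only [L]; nlinarith
  have hch := chain (fun t => M.rule k (t * k)) σ φ (L := L) (K := K)
    (fun m => (M.rule _ _).measurable_PP _ _) (fun s => (M.rule _ _).sum_PP _ _)
    (fun t => by
      ext m s
      simp only [φ, Rule.next, add_mul, one_mul, Mach.P_add, zero_add]; rfl)
    (fun m => by
      filter_upwards [hσ1] with s hs
      refine le_trans ?_ (univ_le_UU _ ((withDensity_absolutelyContinuous _ _).ae_le hσ1) k L hs)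
      simp only [φ, zero_mul, Mach.P_zero]
      split_ifs <;> simp)
    (fun t h1 h2 => block _ σ hσ1 (φ t) h1 h2 (θ := θ) (δ := δ) (τ := τ) (by positivity)
      (by positivity) (by positivity) hσb hC hK) n
  obtain ⟨e, he⟩ : ∃ e, d - 1 = (k + e) + (2 * k + 2) := ⟨d - 1 - k - (2 * k + 2), by omega⟩
  have hfin := final_bound (k := k) σ (d := d) (e := k + e)
    (fun z r h1 h2 => by rw [← he]; exact sig_ball _ z h1 h2) (φ n) hch.1 hch.2.1 L (K ^ n) out
    hε hε1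
  refine (M.succ_le σ T m₀ out ε).trans ?_
  simp_rw [← M.P_pad htriv hn]
  refine hfin.trans ((add_le_add hch.2.2 le_rfl).trans ?_)
  rw [ENNReal.ofReal_add (by positivity) (by positivity)]
  refine add_le_add ?_ ?_
  · rw [ENNReal.ofReal_mul (by positivity), ENNReal.ofReal_natCast]
    refine mul_le_mul_right ?_ _
    have hN' : (Fintype.card St : ℝ≥0) ≤ 2 ^ (a * k ^ 2) := by exact_mod_cast hN
    have h1 : (Fintype.card St : ℝ≥0) * θ ≤ δ := by
      calc _ ≤ 2 ^ (a * k ^ 2) * θ := by gcongr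
        _ = _ := by simp only [θ, δ, pow_add, one_div, inv_pow]; field_simp
    have h2 : (Fintype.card St : ℝ≥0) * (τ⁻¹) ^ k ≤ δ := by
      calc _ ≤ 2 ^ (a * k ^ 2) * (τ⁻¹) ^ k := by gcongr
        _ = _ := by simp only [τ, δ, one_div, inv_pow]; field_simp; ring
    have h3 : (4⁻¹ : ℝ≥0) ^ (2 * k) ≤ δ := by
      rw [pow_mul]; exact pow_le_pow_left₀ zero_le (by rw [← NNReal.coe_le_coe]; norm_num) _
    have h4 : 1 + (L + 1) * (C + 1) * 7 ≤ 8 * (a + 7) * (6 * a + 40) * k ^ 3 := by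
      have h5 : L + 1 ≤ (a + 7) * k := by simp only [L]; nlinarith
      have h6 : C + 1 ≤ (6 * a + 40) * k ^ 2 := by
        have : L ≤ (a + 6) * k := by simp only [L]; nlinarith
        have h7 : (2 * k + 3) * L ≤ (5 * k) * ((a + 6) * k) := Nat.mul_le_mul (by omega) this
        simp only [C]; nlinarith
      have h7 : (L + 1) * (C + 1) ≤ (a + 7) * k * ((6 * a + 40) * k ^ 2) := Nat.mul_le_mul h5 h6
      have h8 : 1 ≤ (L + 1) * (C + 1) := Nat.one_le_iff_ne_zero.mpr (by positivity)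
      nlinarith
    have h5 : (Fintype.card St : ℝ≥0) * θ + (L + 1) * (C + 1) *
        (4 * δ + 2 * (4⁻¹) ^ (2 * k) + Fintype.card St * (τ⁻¹) ^ k) ≤
        8 * (a + 7) * (6 * a + 40) * k ^ 3 * δ := by
      calc _ ≤ δ + (L + 1) * (C + 1) * (4 * δ + 2 * δ + δ) := by gcongr
        _ = (1 + (L + 1) * (C + 1) * 7) * δ := by ring
        _ ≤ _ := by gcongr; exact_mod_cast h4
    have hτ : τ ≠ 0 := by positivity
    have h6 := ENNReal.coe_le_coe.mpr h5
    rw [← ENNReal.ofReal_coe_nnreal (p := _ * δ)] at h6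
    push_cast [ENNReal.coe_inv hτ, ENNReal.coe_inv (four_ne_zero)] at h6
    simpa [δ] using h6
  · rw [← ENNReal.coe_pow, ← ENNReal.ofReal_coe_nnreal,
      show (L + 1 : ℝ≥0∞) = ENNReal.ofReal (L + 1) by
        rw [ENNReal.ofReal_add (by positivity) zero_le_one]; simp,
      ← ENNReal.ofReal_mul (by positivity), ← ENNReal.ofReal_mul (by positivity)]
    apply ENNReal.ofReal_le_ofReal
    have hL' : (L + 1 : ℝ) ≤ 2 ^ L := by exact_mod_cast hL
    have h1 : ε ^ (k + e) ≤ ε ^ k := pow_le_pow_of_le_one hε.le hε1 (by omega)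
    simp only [K]; push_cast
    calc _ ≤ ((2 : ℝ) ^ ((4 * a + 52) * k)) ^ n * (2 ^ L * (2 ^ d * 2 ^ (2 * k + 2) * ε ^ k)) := by
          gcongr
      _ = 2 ^ ((4 * a + 52) * k * n + L + d + (2 * k + 2)) * ε ^ k := by
          simp only [← pow_mul, pow_add]; ring
      _ ≤ _ := by
        gcongr
        · exact one_le_two
        · simp only [L]; nlinarith

lemma exists_k0 (c : ℝ) : ∃ k₀ : ℕ, ∀ k ≥ k₀, c * (k : ℝ) ^ 4 * (1 / 2) ^ k ≤ 1 / 5 := by
  have h := (tendsto_pow_const_mul_const_pow_of_abs_lt_one 4 (r := 1 / 2)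
    (by rw [abs_of_pos] <;> norm_num)).const_mul c
  rw [mul_zero] at h
  obtain ⟨k₀, hk⟩ := eventually_atTop.mp (h.eventually (ge_mem_nhds (by norm_num : (0 : ℝ) < 1 / 5)))
  exact ⟨k₀, fun k hk' => by simpa [mul_assoc] using hk k hk'⟩

lemma two_pow_le_exp (n : ℕ) : (2 : ℝ) ^ n ≤ Real.exp n := by
  rw [← Real.exp_one_pow]
  exact pow_le_pow_left₀ (by norm_num) (by linarith [Real.exp_one_gt_d9]) _

lemma exp_neg_one_le : Real.exp (-1) ≤ 2 / 5 := by
  rw [Real.exp_neg, inv_le_comm₀ (Real.exp_pos _) (by norm_num)]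
  linarith [Real.exp_one_gt_d9]

theorem det_main (A : ℝ) (hA : 0 < A) : ∃ c : ℝ, 0 < c ∧ ∃ d₀ : ℕ, ∀ d ≥ d₀, ∀ (Mb T : ℕ),
    (Mb : ℝ) ≤ A * (d : ℝ) ^ 2 → ∀ ε : ℝ, 0 < ε → ε ≤ 1 / 10 → T < c * d * Real.log (1 / ε) →
    ∀ (St : Type) [Fintype St] (M : Mach (EuclideanSpace ℝ (Fin d)) St),
      Fintype.card St ≤ 2 ^ Mb * (T + 2) → (∀ t, T ≤ t → ∀ m x y, M.step t m x y = m) →
      ∀ m₀ out, M.succ (sig volume) T m₀ out ε ≤ ENNReal.ofReal (3 / 5) := by
  let a : ℕ := ⌈25 * (2 * A + 3)⌉₊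
  have ha : 25 * (2 * A + 3) ≤ a := Nat.le_ceil _
  obtain ⟨k₀, hk₀⟩ := exists_k0 ((a + 1) * (8 * (a + 7) * (6 * a + 40)))
  refine ⟨1 / (15 * (4 * a + 53)), by positivity, 4 * (k₀ + 4), ?_⟩
  intro d hd Mb T hM ε hε hε1 hT St _ M hN htriv m₀ out
  have hdX : finrank ℝ (EuclideanSpace ℝ (Fin d)) = d := by simp
  have : Nontrivial (EuclideanSpace ℝ (Fin d)) :=
    Module.nontrivial_of_finrank_pos (R := ℝ) (by omega)
  by_cases h1 : 4 * T ≤ d
  · exact M.succ_refl m₀ out hε1 (by omega) (by omega)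
  set l := Real.log (1 / ε) with hl
  have hεl : ε = Real.exp (-l) := by
    rw [hl, Real.exp_neg, Real.exp_log (by positivity)]; simp
  have hl0 : 0 ≤ l := Real.log_nonneg (by rw [le_div_iff₀ hε]; linarith)
  have hd16 : (16 : ℝ) ≤ d := by exact_mod_cast (by omega : 16 ≤ d)
  have ha0 : (0 : ℝ) ≤ a := Nat.cast_nonneg a
  have hT4 : (T : ℝ) ≤ d * l / 4 := by
    have : 1 / (15 * (4 * a + 53) : ℝ) ≤ 1 / 4 := by
      apply one_div_le_one_div_of_le (by norm_num); linarith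
    have h2 : 1 / (15 * (4 * a + 53) : ℝ) * d * l ≤ 1 / 4 * d * l := by gcongr
    linarith
  have hN2 : Fintype.card St ≤ 2 ^ (Mb + T + 1) := by
    refine hN.trans ?_
    rw [add_assoc, pow_add]
    gcongr
    exact Nat.lt_two_pow_self
  by_cases h2 : 2 * (A + 2) * d ≤ l
  · refine (M.succ_count _ T m₀ out ε fun z => sig_ball _ z hε (by linarith)).trans ?_
    rw [← ENNReal.ofReal_natCast, ← ENNReal.ofReal_mul (by positivity), hdX]
    apply ENNReal.ofReal_le_ofReal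
    have h3 : (Fintype.card St : ℝ) ≤ Real.exp (Mb + T + 1) := by
      have := two_pow_le_exp (Mb + T + 1)
      push_cast at this
      exact le_trans (by exact_mod_cast hN2) this
    calc _ ≤ Real.exp (Mb + T + 1) * (Real.exp d * ε ^ (d - 1)) := by
          gcongr; exact two_pow_le_exp d
      _ = Real.exp (Mb + T + 1 + d - (d - 1) * l) := by
          rw [hεl, ← Real.exp_nat_mul, ← Real.exp_add, ← Real.exp_add, Nat.cast_sub (by omega)]
          congr 1; push_cast; ring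
      _ ≤ Real.exp (-1) := by
          apply Real.exp_le_exp.mpr
          have h4 : (d : ℝ) * (2 * (A + 2) * d) ≤ d * l := by gcongr
          nlinarith
      _ ≤ _ := exp_neg_one_le.trans (by norm_num)
  push Not at h1 h2
  set k := d / 4 with hk
  have hk1 : 4 * k ≤ d := by omega
  have hk2 : d ≤ 5 * k := by omega
  have hk3 : k₀ + 4 ≤ k := by omega
  have hk2' : (d : ℝ) ≤ 5 * k := by exact_mod_cast hk2
  have hk0 : (0 : ℝ) < k := by exact_mod_cast (by omega : 0 < k)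
  have h3 : Mb + T + 1 ≤ a * k ^ 2 := by
    have h4 : (d : ℝ) * l ≤ d * (2 * (A + 2) * d) := by gcongr
    have h5 : (d : ℝ) ^ 2 ≤ (5 * k) ^ 2 := by gcongr
    have h6 : (Mb + T + 1 : ℝ) ≤ (2 * A + 3) * d ^ 2 := by nlinarith
    have h7 : (2 * A + 3) * (d : ℝ) ^ 2 ≤ (2 * A + 3) * (5 * k) ^ 2 := by gcongr
    have h8 : 25 * (2 * A + 3) * (k : ℝ) ^ 2 ≤ a * k ^ 2 := by gcongr
    have : (Mb + T + 1 : ℝ) ≤ a * k ^ 2 := by nlinarith
    exact_mod_cast this
  set n := T / k + 1 with hn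
  have hn1 : T ≤ n * k := by
    have := Nat.lt_div_mul_add (a := T) (b := k) (by omega)
    rw [hn, add_mul, one_mul]; omega
  have hn2 : (T / k) * k ≤ T := Nat.div_mul_le_self T k
  have hn3 : n ≤ (a + 1) * k := by
    have : T / k ≤ a * k := Nat.div_le_of_le_mul (by nlinarith)
    rw [hn, add_mul, one_mul]; omega
  have hn4 : (n + 1) * k ≤ 3 * T := by
    rw [hn, add_mul, add_mul, one_mul]; omega
  refine (succ_main M htriv m₀ out hε (by linarith) (by omega) (by omega) (by omega)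
    (hN2.trans (Nat.pow_le_pow_right two_pos h3)) hn1).trans (ENNReal.ofReal_le_ofReal ?_)
  have b1 : n * (8 * (a + 7) * (6 * a + 40) * (k : ℝ) ^ 3 * (1 / 2) ^ k) ≤ 1 / 5 := by
    refine le_trans ?_ (hk₀ k (by omega))
    have : (n : ℝ) ≤ (a + 1) * k := by exact_mod_cast hn3
    calc _ ≤ (a + 1) * k * (8 * (a + 7) * (6 * a + 40) * (k : ℝ) ^ 3 * (1 / 2) ^ k) := by gcongr
      _ = _ := by ring
  have b2 : (2 : ℝ) ^ ((4 * a + 52) * k * (n + 1)) * ε ^ k ≤ 2 / 5 := by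
    have h4 : ((n : ℝ) + 1) * k ≤ 3 * T := by exact_mod_cast hn4
    have h5 : (4 * a + 53) * ((n : ℝ) + 1) ≤ l := by
      have h6 : (15 * (4 * a + 53) : ℝ) * T ≤ d * l := by
        have : (1 / (15 * (4 * a + 53)) * d * l : ℝ) = d * l / (15 * (4 * a + 53)) := by ring
        rw [this, lt_div_iff₀ (by positivity)] at hT
        linarith
      have h7 : (d : ℝ) * l ≤ 5 * k * l := by gcongr
      have h8 : (4 * a + 53) * (((n : ℝ) + 1) * k) ≤ (4 * a + 53) * (3 * T) := by gcongr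
      have : (4 * a + 53) * ((n : ℝ) + 1) * k ≤ l * k := by nlinarith
      exact le_of_mul_le_mul_right this hk0
    calc _ ≤ Real.exp (((4 * a + 52) * k * (n + 1) : ℕ)) * ε ^ k := by
          gcongr; exact two_pow_le_exp _
      _ = Real.exp ((4 * a + 52) * k * (n + 1) - k * l) := by
          rw [hεl, ← Real.exp_nat_mul, ← Real.exp_add]
          congr 1; push_cast; ring
      _ ≤ Real.exp (-1) := by
          apply Real.exp_le_exp.mpr
          have h6 : (k : ℝ) * ((4 * a + 53) * ((n : ℝ) + 1)) ≤ k * l := by gcongr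
          have h7 : (1 : ℝ) ≤ k := by exact_mod_cast (by omega : 1 ≤ k)
          have h8 : (0 : ℝ) ≤ n := Nat.cast_nonneg n
          nlinarith
      _ ≤ _ := exp_neg_one_le
  linarith

end Crest.Agent.SL
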