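import Crest.Agent.SL.Gauss

set_option autoImplicit false
set_option linter.unusedSectionVars false

open MeasureTheory Metric Set Module ProbabilityTheory
open scoped ENNReal RealInnerProductSpace

namespace Crest.Agent.SL

variable {X : Type*} [NormedAddCommGroup X] [InnerProductSpace ℝ X] [FiniteDimensional ℝ X]
  [MeasurableSpace X] [BorelSpace X]

/-- dyadic scales. -/
noncomputable def rho (l : ℕ) : ℝ := 2 * (1 / 2) ^ l

lemma rho_pos (l : ℕ) : 0 < rho l := by unfold rho; positivity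

lemma rho_anti {j l : ℕ} (h : j ≤ l) : rho l ≤ rho j := by
  unfold rho; gcongr ?_ * ?_; exact pow_le_pow_of_le_one (by norm_num) (by norm_num) h

lemma rho_le_two (l : ℕ) : rho l ≤ 2 := by simpa [rho] using rho_anti (Nat.zero_le l)

lemma exists_rho {x : ℝ} (h0 : 0 < x) (h2 : x ≤ 2) : ∃ j, rho j / 2 < x ∧ x ≤ rho j := by
  obtain ⟨j, h1, h3⟩ := exists_nat_pow_near_of_lt_one (x := x / 2) (y := 1 / 2) (by positivity)
    (by linarith) (by norm_num) (by norm_num)
  refine ⟨j, ?_, ?_⟩
  · unfold rho; rw [pow_succ] at h1; linarith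
  · unfold rho; linarith

/-- `min 1 (η / x)`. -/
noncomputable def qq (η x : ℝ) : ℝ≥0∞ := ENNReal.ofReal (η / max x η)

lemma le_qq {η x : ℝ} (hη : 0 < η) {a b : ℝ≥0∞} (h1 : a ≤ b)
    (h2 : ENNReal.ofReal x * a ≤ ENNReal.ofReal η * b) : a ≤ qq η x * b := by
  unfold qq
  rcases le_total x η with h | h
  · rw [max_eq_right h, div_self hη.ne']; simpa using h1
  · have hx : 0 < x := hη.trans_le h
    rw [max_eq_left h, ← ENNReal.mul_le_mul_iff_right (a := ENNReal.ofReal x) (by simpa using hx)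
      ENNReal.ofReal_ne_top, ← mul_assoc, ← ENNReal.ofReal_mul hx.le, mul_div_cancel₀ _ hx.ne']
    exact h2

/-- ball bound hypothesis. -/
def BallBound (ν : Measure X) (k : ℕ) (θ : ℝ≥0∞) : Prop :=
  ∀ l w, ν (closedBall w (rho l / 2)) ≤ θ * ENNReal.ofReal ((1 / 2) ^ ((2 * k + 2) * l))

lemma I_bound (ν : Measure X) [IsFiniteMeasure ν] {k : ℕ} {θ : ℝ≥0∞} (hν : BallBound ν k θ)
    (s : X) (hs : ∀ᵐ z ∂ν, ‖z - s‖ ≤ 2) {η : ℝ} (hη : 0 < η) (hη2 : η ≤ 2)
    (V : Submodule ℝ X) (hV : finrank ℝ V ≤ k) :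
    ∫⁻ z, qq η ‖z - s‖ ^ k * qq η (dV V (z - s)) ^ k ∂ν ≤
      θ * ENNReal.ofReal (4 * 8 ^ finrank ℝ X * η ^ (2 * k)) := by
  let T : ℕ × ℕ → Set X := fun p => {z | p.1 ≤ p.2 ∧ z - s ∈ tube V (rho p.1) (rho p.2)}
  have hT : ∀ p, MeasurableSet (T p) := fun p =>
    (MeasurableSet.const _).inter ((measurable_id.sub_const s) (measurableSet_tube V _ _))
  let c : ℕ × ℕ → ℝ≥0∞ := fun p => ENNReal.ofReal (η ^ (2 * k) * 2 ^ (p.1 * k) * 2 ^ (p.2 * k))
  have h1 : ∀ᵐ z ∂ν, qq η ‖z - s‖ ^ k * qq η (dV V (z - s)) ^ k ≤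
      ∑' p, (T p).indicator (fun _ => c p) z := by
    filter_upwards [hs] with z hz
    have hd := dV_le_norm V (z - s)
    have hd0 := dV_nonneg V (z - s)
    obtain ⟨j, hj1, hj2⟩ := exists_rho (x := max ‖z - s‖ η) (lt_max_of_lt_right hη)
      (max_le hz hη2)
    obtain ⟨l, hl1, hl2⟩ := exists_rho (x := max (dV V (z - s)) η) (lt_max_of_lt_right hη)
      (max_le (hd.trans hz) hη2)
    have hjl : j ≤ l := by
      by_contra h
      have h3 : rho j ≤ rho (l + 1) := rho_anti (by omega)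
      have h4 : rho (l + 1) = rho l / 2 := by unfold rho; ring
      have h5 : max (dV V (z - s)) η ≤ max ‖z - s‖ η := max_le_max hd le_rfl
      linarith
    refine le_trans ?_ (ENNReal.le_tsum (j, l))
    rw [indicator_of_mem (show z ∈ T (j, l) from
      ⟨hjl, (le_max_left _ _).trans hj2, (le_max_left _ _).trans hl2⟩)]
    have key : ∀ (x : ℝ) (j : ℕ), rho j / 2 < max x η → η / max x η ≤ η * 2 ^ j := by
      intro x j h
      have h0 : 0 < max x η := lt_max_of_lt_right hη
      rw [div_le_iff₀ h0, mul_assoc]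
      refine le_mul_of_one_le_right hη.le ?_
      have : rho j / 2 * 2 ^ j = 1 := by unfold rho; rw [one_div, inv_pow]; field_simp
      nlinarith [pow_pos (two_pos (α := ℝ)) j]
    unfold qq
    rw [← ENNReal.ofReal_pow (by positivity), ← ENNReal.ofReal_pow (by positivity),
      ← ENNReal.ofReal_mul (by positivity)]
    apply ENNReal.ofReal_le_ofReal
    calc _ ≤ (η * 2 ^ j) ^ k * (η * 2 ^ l) ^ k := by
          gcongr
          · exact key _ _ hj1
          · exact key _ _ hl1
      _ = _ := by simp only [mul_pow, ← pow_mul]; ring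
  have h2 : ∀ p : ℕ × ℕ, c p * ν (T p) ≤
      θ * ENNReal.ofReal (8 ^ finrank ℝ X * η ^ (2 * k)) * ((2⁻¹) ^ p.1 * (2⁻¹) ^ p.2) := by
    rintro ⟨j, l⟩
    by_cases hjl : j ≤ l
    · have h3 := nu_tube ν (rho_pos l) (rho_anti hjl) (hν l) V s
      have h4 : T (j, l) = {z | z - s ∈ tube V (rho j) (rho l)} := by ext z; simp [T, hjl]
      rw [h4]
      have e2 : (2⁻¹ : ℝ≥0∞) = ENNReal.ofReal (1 / 2) := by
        rw [one_div, ENNReal.ofReal_inv_of_pos two_pos]; simp
      refine (mul_le_mul_right h3 _).trans ?_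
      rw [e2, ← ENNReal.ofReal_pow (by positivity), ← ENNReal.ofReal_pow (by positivity),
        ← ENNReal.ofReal_mul (by positivity), mul_assoc θ, mul_assoc θ, mul_left_comm,
        ← ENNReal.ofReal_mul (by positivity), ← ENNReal.ofReal_mul (by positivity),
        ← ENNReal.ofReal_mul (by positivity)]
      refine mul_le_mul_right (ENNReal.ofReal_le_ofReal ?_) _
      obtain ⟨m, rfl⟩ := Nat.exists_eq_add_of_le hjl
      have h5 : rho j / rho (j + m) = 2 ^ m := by
        unfold rho; rw [pow_add, one_div, inv_pow, inv_pow]; field_simp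
      have h6 : (rho j / rho (j + m)) ^ finrank ℝ V ≤ (2 ^ m) ^ k := by
        rw [h5]; exact pow_le_pow_right₀ (one_le_pow₀ (by norm_num)) hV
      have h7 : (1 / 2 : ℝ) ^ (j + m) ≤ (1 / 2) ^ j :=
        pow_le_pow_of_le_one (by norm_num) (by norm_num) (by omega)
      calc _ ≤ η ^ (2 * k) * 2 ^ (j * k) * 2 ^ ((j + m) * k) *
            ((1 / 2) ^ ((2 * k + 2) * (j + m)) * ((2 ^ m) ^ k * 8 ^ finrank ℝ X)) := by gcongr
        _ = 8 ^ finrank ℝ X * η ^ (2 * k) * ((1 / 2) ^ (j + m) * (1 / 2) ^ (j + m)) := by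
          simp only [one_div, inv_pow]; field_simp; ring
        _ ≤ _ := by gcongr
    · have : T (j, l) = ∅ := by ext z; simp [T, hjl]
      simp [this]
  calc _ ≤ ∫⁻ z, ∑' p, (T p).indicator (fun _ => c p) z ∂ν := lintegral_mono_ae h1
    _ = ∑' p, c p * ν (T p) := by
      rw [lintegral_tsum fun p => (measurable_const.indicator (hT p)).aemeasurable]
      congr 1; ext p; rw [lintegral_indicator (hT p), setLIntegral_const]
    _ ≤ ∑' p : ℕ × ℕ, θ * ENNReal.ofReal (8 ^ finrank ℝ X * η ^ (2 * k)) *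
        ((2⁻¹) ^ p.1 * (2⁻¹) ^ p.2) := ENNReal.tsum_le_tsum h2
    _ = _ := by
      rw [ENNReal.tsum_mul_left, ENNReal.tsum_prod (f := fun j l : ℕ => (2⁻¹ : ℝ≥0∞) ^ j * (2⁻¹) ^ l)]
      simp_rw [ENNReal.tsum_mul_left, ENNReal.tsum_mul_right, ENNReal.tsum_geometric]
      rw [ENNReal.one_sub_inv_two, inv_inv, mul_assoc θ, mul_assoc (4 : ℝ),
        ENNReal.ofReal_mul (p := 4) (by norm_num), mul_comm (ENNReal.ofReal 4)]
      congr 2; norm_num

/-- all rows in a given set. -/
def rows (k : ℕ) (D : Set X) : Set (Fin k → X) := Set.pi univ fun _ => D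

lemma measurableSet_rows (k : ℕ) {D : Set X} (hD : MeasurableSet D) :
    MeasurableSet (rows k D) := MeasurableSet.univ_pi fun _ => hD

/-- Gaussian matrices. -/
noncomputable abbrev GG (X : Type*) [NormedAddCommGroup X] [InnerProductSpace ℝ X]
    [FiniteDimensional ℝ X] [MeasurableSpace X] (k : ℕ) : Measure (Fin k → X) :=
  Measure.pi fun _ => stdGaussian X

lemma GG_rows (k : ℕ) (D : Set X) : GG X k (rows k D) = stdGaussian X D ^ k := by
  rw [rows, Measure.pi_pi]; simp

lemma measurable_slabs (k : ℕ) (s : X) (η : ℝ) :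
    MeasurableSet {p : (Fin k → X) × X | p.1 ∈ rows k (slab (p.2 - s) η)} := by
  simp only [rows, slab, mem_pi, mem_univ, forall_const, mem_ofPred_eq]
  measurability

lemma measurable_p1 (η : ℝ) : Measurable fun v : X => stdGaussian X (slab v η) := by
  have : MeasurableSet {p : X × X | p.2 ∈ slab p.1 η} := by
    simp only [slab, mem_ofPred_eq]; measurability
  exact measurable_measure_prodMk_left this

/-- the averaged plane mass. -/
noncomputable def ZZ (ν : Measure X) (k : ℕ) (s : X) (η : ℝ) (A : Fin k → X) : ℝ≥0∞ :=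
  ∫⁻ z, (rows k (slab (z - s) η)).indicator (fun _ => stdGaussian X (slab (z - s) η) ^ k) A ∂ν

lemma measurable_ZZ_aux (k : ℕ) (η : ℝ) :
    Measurable fun p : (X × (Fin k → X)) × X => (rows k (slab (p.2 - p.1.1) η)).indicator
      (fun _ => stdGaussian X (slab (p.2 - p.1.1) η) ^ k) p.1.2 := by
  have h1 : MeasurableSet {p : (X × (Fin k → X)) × X | p.1.2 ∈ rows k (slab (p.2 - p.1.1) η)} := by
    simp only [rows, slab, mem_pi, mem_univ, forall_const, mem_ofPred_eq]
    measurability
  have h2 : Measurable fun p : (X × (Fin k → X)) × X =>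
      stdGaussian X (slab (p.2 - p.1.1) η) ^ k :=
    ((measurable_p1 η).comp (by fun_prop)).pow_const k
  exact h2.indicator h1

lemma measurable_ZZ (ν : Measure X) [SFinite ν] (k : ℕ) (η : ℝ) :
    Measurable fun p : X × (Fin k → X) => ZZ ν k p.1 η p.2 :=
  (measurable_ZZ_aux k η).lintegral_prod_right'

lemma ZZ_moment (ν : Measure X) [IsFiniteMeasure ν] {k : ℕ} {θ : ℝ≥0∞} (hν : BallBound ν k θ)
    (s : X) (hs : ∀ᵐ z ∂ν, ‖z - s‖ ≤ 2) {η : ℝ} (hη : 0 < η) (hη2 : η ≤ 2) (j : ℕ) :
    ∀ (V : Submodule ℝ X) (D : Set X), MeasurableSet D → finrank ℝ V + j ≤ k →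
      (∀ a, ∀ u ∈ Vᗮ, a + u ∈ D ↔ a ∈ D) →
      ∫⁻ A in rows k D, ZZ ν k s η A ^ j ∂(GG X k) ≤
        stdGaussian X D ^ k * (θ * ENNReal.ofReal (4 * 8 ^ finrank ℝ X * η ^ (2 * k))) ^ j := by
  have hZ : Measurable (ZZ ν k s η) := (measurable_ZZ ν k η).comp (measurable_prodMk_left (x := s))
  induction j with
  | zero => intro V D hD _ _; simp [GG_rows]
  | succ j ih =>
    intro V D hD hV hDV
    set I := θ * ENNReal.ofReal (4 * 8 ^ finrank ℝ X * η ^ (2 * k))
    have hm : Measurable fun p : (Fin k → X) × X => (rows k (slab (p.2 - s) η)).indicator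
        (fun _ => stdGaussian X (slab (p.2 - s) η) ^ k) p.1 :=
      (measurable_ZZ_aux k η).comp (f := fun p : (Fin k → X) × X => ((s, p.1), p.2)) (by fun_prop)
    calc _ = ∫⁻ A in rows k D, ∫⁻ z, ZZ ν k s η A ^ j * (rows k (slab (z - s) η)).indicator
            (fun _ => stdGaussian X (slab (z - s) η) ^ k) A ∂ν ∂(GG X k) := by
          congr 1; ext A
          rw [pow_succ]
          exact (lintegral_const_mul _ (hm.comp (measurable_prodMk_left (x := A)))).symm
      _ = ∫⁻ z, ∫⁻ A in rows k D, ZZ ν k s η A ^ j * (rows k (slab (z - s) η)).indicator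
            (fun _ => stdGaussian X (slab (z - s) η) ^ k) A ∂(GG X k) ∂ν :=
          lintegral_lintegral_swap (((hZ.comp measurable_fst).pow_const j).mul hm).aemeasurable
      _ ≤ ∫⁻ z, (qq η ‖z - s‖ ^ k * qq η (dV V (z - s)) ^ k) *
            (stdGaussian X D ^ k * I ^ j) ∂ν := by
          refine lintegral_mono fun z => ?_
          set v := z - s
          have e1 : ∫⁻ A in rows k D, ZZ ν k s η A ^ j * (rows k (slab v η)).indicator
              (fun _ => stdGaussian X (slab v η) ^ k) A ∂(GG X k) =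
              stdGaussian X (slab v η) ^ k *
                ∫⁻ A in rows k (D ∩ slab v η), ZZ ν k s η A ^ j ∂(GG X k) := by
            have e2 : rows k (D ∩ slab v η) = rows k (slab v η) ∩ rows k D := by
              ext A; simp only [rows, mem_pi, mem_univ, forall_const, mem_inter_iff]
              exact ⟨fun h => ⟨fun i => (h i).2, fun i => (h i).1⟩, fun h i => ⟨h.2 i, h.1 i⟩⟩
            rw [e2, ← Measure.restrict_restrict (measurableSet_rows k (measurableSet_slab v η)),
              ← lintegral_indicator (measurableSet_rows k (measurableSet_slab v η)),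
              ← lintegral_const_mul _ ((hZ.pow_const j).indicator
                (measurableSet_rows k (measurableSet_slab v η)))]
            congr 1; ext A
            by_cases hA : A ∈ rows k (slab v η) <;> simp [hA, mul_comm]
          rw [e1]
          have hrank : finrank ℝ (V ⊔ (ℝ ∙ v) : Submodule ℝ X) + j ≤ k := by
            have h1 := Submodule.finrank_add_le_finrank_add_finrank V (ℝ ∙ v)
            have h2 : finrank ℝ (ℝ ∙ v) ≤ 1 := by
              simpa using finrank_span_le_card ({v} : Set X)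
            omega
          have h3 := ih (V ⊔ (ℝ ∙ v)) (D ∩ slab v η) (hD.inter (measurableSet_slab v η)) hrank (by
            intro a u hu
            have hu1 : u ∈ Vᗮ := Submodule.orthogonal_le le_sup_left hu
            have hu2 : ⟪u, v⟫ = 0 := (Submodule.mem_orthogonal' _ u).mp hu v
              (Submodule.mem_sup_right (Submodule.mem_span_singleton_self v))
            simp only [mem_inter_iff, hDV a u hu1, slab, mem_ofPred_eq, inner_add_left, hu2,
              add_zero])
          have h4 : stdGaussian X (slab v η) ≤ qq η ‖v‖ := by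
            simpa using le_qq hη (b := 1) prob_le_one (by simpa using slab_bound v η)
          have h5 : stdGaussian X (D ∩ slab v η) ≤ qq η (dV V v) * stdGaussian X D :=
            le_qq hη (measure_mono inter_subset_left) (row_lemma V hD hDV v η)
          calc _ ≤ qq η ‖v‖ ^ k * ((qq η (dV V v) * stdGaussian X D) ^ k * I ^ j) := by
                gcongr; exact h3.trans (by gcongr)
            _ = _ := by rw [mul_pow]; ring
      _ ≤ I * (stdGaussian X D ^ k * I ^ j) := by
          rw [lintegral_mul_const _ (by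
            unfold qq
            have := (continuous_dV V).measurable
            fun_prop)]
          gcongr
          exact I_bound ν hν s hs hη hη2 V (by omega)
      _ = _ := by ring

/-- tail bound for the averaged plane mass. -/
lemma ZZ_tail (ν : Measure X) [IsFiniteMeasure ν] {k : ℕ} {θ : ℝ≥0∞} (hθ0 : θ ≠ 0) (hθ : θ ≠ ⊤)
    (hν : BallBound ν k θ)
    (s : X) (hs : ∀ᵐ z ∂ν, ‖z - s‖ ≤ 2) {η : ℝ} (hη : 0 < η) (hη2 : η ≤ 2) {τ : ℝ≥0∞}
    (hτ0 : τ ≠ 0) (hτ : τ ≠ ⊤) :
    GG X k {A | τ * (θ * ENNReal.ofReal (4 * 8 ^ finrank ℝ X * η ^ (2 * k))) < ZZ ν k s η A} ≤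
      (τ⁻¹) ^ k := by
  have hZ : Measurable (ZZ ν k s η) := (measurable_ZZ ν k η).comp (measurable_prodMk_left (x := s))
  have h := ZZ_moment ν hν s hs hη hη2 k ⊥ univ MeasurableSet.univ (by simp) (by simp)
  set I := θ * ENNReal.ofReal (4 * 8 ^ finrank ℝ X * η ^ (2 * k))
  have hI0 : I ≠ 0 := mul_ne_zero hθ0 (by simp; positivity)
  have hI : I ≠ ⊤ := ENNReal.mul_ne_top hθ ENNReal.ofReal_ne_top
  have e : rows k (univ : Set X) = univ := by simp [rows]
  rw [e, Measure.restrict_univ, measure_univ, one_pow, one_mul] at h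
  have h2 := (mul_meas_ge_le_lintegral₀ (μ := GG X k) (hZ.pow_const k).aemeasurable
    ((τ * I) ^ k)).trans h
  have h3 : {A | τ * I < ZZ ν k s η A} ⊆ {A | (τ * I) ^ k ≤ ZZ ν k s η A ^ k} :=
    fun A hA => (pow_le_pow_left' (le_of_lt hA) k : (τ * I) ^ k ≤ ZZ ν k s η A ^ k)
  refine (measure_mono h3).trans ?_
  rw [← ENNReal.mul_le_mul_iff_right (a := (τ * I) ^ k) (pow_ne_zero _ (mul_ne_zero hτ0 hI0))
    (ENNReal.pow_ne_top (ENNReal.mul_ne_top hτ hI))]
  refine h2.trans (le_of_eq ?_)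
  rw [← mul_pow, mul_comm τ, mul_assoc, ENNReal.mul_inv_cancel hτ0 hτ, mul_one]

end Crest.Agent.SL
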