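import Crest.Agent.SL.Lower

set_option autoImplicit false
set_option linter.unusedSectionVars false

open MeasureTheory Metric Set Module ProbabilityTheory Filter Topology
open scoped ENNReal RealInnerProductSpace

namespace Crest.Agent.SL

lemma sum_liminf_le {κ : Type*} [Fintype κ] (f : κ → ℕ → ℝ≥0∞) :
    ∑ i, liminf (f i) atTop ≤ liminf (fun j => ∑ i, f i j) atTop := by
  let _ : MeasurableSpace κ := ⊤
  have h := lintegral_liminf_le (μ := (Measure.count : Measure κ)) (u := atTop)
    (f := fun j i => f i j) fun j => measurable_from_top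
  simpa only [lintegral_count, tsum_fintype] using h

lemma rn_lemma {X ι : Type*} [MeasurableSpace X] [Fintype ι] (σ : Measure X) {φ ψ a : X → ℝ≥0∞}
    (hφ : Measurable φ) (hψ : Measurable ψ) (ha : Measurable a)
    [IsFiniteMeasure (σ.withDensity φ)] [IsFiniteMeasure (σ.withDensity ψ)]
    {T : X → ι → ℝ} (hT : Measurable T) {E : Set (ι → ℝ)} (hE : MeasurableSet E) (δ : ℝ≥0∞)
    {η : ℕ → ℝ} (hη : Tendsto η atTop (𝓝[>] 0)) :
    σ.withDensity φ (T ⁻¹' E ∩ {s | φ s < δ * a s * ψ s}) ≤
      δ * σ.withDensity φ (T ⁻¹' E) + liminf (fun j => σ.withDensity φ (T ⁻¹' E ∩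
        {s | 0 < a s ∧ σ.withDensity φ (T ⁻¹' closedBall (T s) (η j)) ≤
          a s * σ.withDensity ψ (T ⁻¹' closedBall (T s) (η j))})) atTop := by
  set μ := σ.withDensity φ with hμ
  set ν := σ.withDensity ψ with hν
  let ρ := (μ.map T).rnDeriv (ν.map T)
  have hρ : Measurable ρ := Measure.measurable_rnDeriv _ _
  let S1 := T ⁻¹' E ∩ {s | φ s ≤ δ * (ψ s * ρ (T s))}
  let S2 := T ⁻¹' E ∩ {s | ψ s ≠ 0 ∧ ρ (T s) < a s}
  have hsub : T ⁻¹' E ∩ {s | φ s < δ * a s * ψ s} ⊆ S1 ∪ S2 := by
    rintro s ⟨h1, h2⟩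
    have h2 : φ s < δ * a s * ψ s := h2
    rcases le_or_gt (a s) (ρ (T s)) with h | h
    · left; refine ⟨h1, h2.le.trans ?_⟩
      rw [mul_assoc, mul_comm (a s)]; gcongr
    · right; refine ⟨h1, ?_, h⟩
      intro h0; simp [h0] at h2
  refine (measure_mono hsub).trans ((measure_union_le _ _).trans (add_le_add ?_ ?_))
  · have hS1 : MeasurableSet S1 := (hT hE).inter (measurableSet_le hφ (by fun_prop))
    calc μ S1 = ∫⁻ s in S1, φ s ∂σ := withDensity_apply _ hS1
      _ ≤ ∫⁻ s in S1, δ * (ψ s * ρ (T s)) ∂σ := setLIntegral_mono' hS1 fun s hs => hs.2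
      _ ≤ ∫⁻ s in T ⁻¹' E, δ * (ψ s * ρ (T s)) ∂σ := lintegral_mono_set inter_subset_left
      _ = δ * ∫⁻ y in E, ρ y ∂(ν.map T) := by
        rw [lintegral_const_mul _ (by fun_prop), setLIntegral_map hE hρ hT,
          setLIntegral_withDensity_eq_setLIntegral_mul σ (g := fun x => ρ (T x)) hψ (hρ.comp hT)
            (hT hE)]
        rfl
      _ ≤ δ * μ (T ⁻¹' E) := by
        gcongr
        rw [← Measure.map_apply hT hE]
        exact Measure.setLIntegral_rnDeriv_le E
  · let Bad : ℕ → Set X := fun j => T ⁻¹' E ∩ {s | 0 < a s ∧ μ (T ⁻¹' closedBall (T s) (η j)) ≤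
          a s * ν (T ⁻¹' closedBall (T s) (η j))}
    have hN : ∀ (μ : Measure X) [SFinite μ] (r : ℝ),
        Measurable fun s => μ (T ⁻¹' closedBall (T s) r) := fun μ _ r => by
      have : MeasurableSet {p : X × X | p.2 ∈ T ⁻¹' closedBall (T p.1) r} :=
        measurableSet_le ((hT.comp measurable_snd).dist (hT.comp measurable_fst)) measurable_const
      exact measurable_measure_prodMk_left this
    have hBad : ∀ j, MeasurableSet (Bad j) := fun j =>
      (hT hE).inter ((measurableSet_lt measurable_const ha).inter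
        (measurableSet_le (hN μ _) (ha.mul (hN ν _))))
    have h1 := Besicovitch.ae_tendsto_rnDeriv (μ.map T) (ν.map T)
    have h2 := (ae_withDensity_iff hψ).mp (ae_of_ae_map hT.aemeasurable h1)
    have h3 := (withDensity_absolutelyContinuous σ φ).ae_le h2
    have hS2 : MeasurableSet S2 := (hT hE).inter
      ((hψ (measurableSet_singleton 0).compl).inter (measurableSet_lt (hρ.comp hT) ha))
    calc μ S2 = ∫⁻ s, S2.indicator 1 s ∂μ := (lintegral_indicator_one hS2).symm
      _ ≤ ∫⁻ s, liminf (fun j => (Bad j).indicator 1 s) atTop ∂μ := by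
        refine lintegral_mono_ae ?_
        filter_upwards [h3] with s hs
        by_cases h : s ∈ S2
        · rw [indicator_of_mem h]
          refine le_liminf_of_le (by isBoundedDefault) ?_
          have h4 := ((hs h.2.1).comp hη).eventually (gt_mem_nhds h.2.2)
          filter_upwards [h4] with j hj
          rw [indicator_of_mem]
          refine ⟨h.1, pos_of_gt h.2.2, ?_⟩
          simp only [Function.comp, Measure.map_apply hT measurableSet_closedBall] at hj
          by_cases h0 : ν (T ⁻¹' closedBall (T s) (η j)) = 0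
          · by_cases h5 : μ (T ⁻¹' closedBall (T s) (η j)) = 0
            · simp [h5]
            · rw [h0, ENNReal.div_zero h5] at hj; exact absurd hj not_top_lt
          · exact ((ENNReal.div_lt_iff (Or.inl h0) (Or.inl (measure_ne_top _ _))).mp hj).le
        · rw [indicator_of_notMem h]; exact zero_le
      _ ≤ liminf (fun j => ∫⁻ s, (Bad j).indicator 1 s ∂μ) atTop :=
        lintegral_liminf_le fun j => measurable_one.indicator (hBad j)
      _ = _ := by simp_rw [lintegral_indicator_one (hBad _)]; rfl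

end Crest.Agent.SL
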